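/-
Theorem A (helper6).  Let `X` be a real normed space and `Ξ` a nonexpansive self map of the unit
sphere with `‖x + Ξ x‖ = 2` for every unit `x`.  Then `Ξ` is the identity.

Proof.  `x` and `Ξ x` lie on a common flat piece of the sphere, so `J x = (4/5) x + (1/5) Ξ x` is a
nonexpansive self map of the sphere.  The homogeneous extension of `Ξ` is `3`-Lipschitz, so the
homogeneous extension of `J` is a Lipschitz perturbation of a multiple of the identity which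
preserves the norm: `J` has dense range (Picard iteration; onto if `X` is complete).  Along any orbit of `J` the displacement `‖x - Ξ x‖` tends to `0`
uniformly (Ishikawa, Goebel-Kirk).  Since `J^N` has dense range, the displacement vanishes.

Consequence: every surjective isometry of unit spheres of normed spaces is odd.
-/
import Vale.Agent.Lib.P084.UC.APlus

namespace Vale.Agent.Lib.P084.Inf

open Vale.Agent.Lib.P084.UC

variable {X Y : Type*} [NormedAddCommGroup X] [NormedSpace ℝ X] [NormedAddCommGroup Y]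
  [NormedSpace ℝ Y]

/-- Homogeneous extension. -/
noncomputable def hom (Ξ : X → X) (y : X) : X := ‖y‖ • Ξ (‖y‖⁻¹ • y)

theorem norm_inv_smul {y : X} (hy : y ≠ 0) : ‖‖y‖⁻¹ • y‖ = 1 := by
  rw [norm_smul, norm_inv, norm_norm, inv_mul_cancel₀ (norm_ne_zero_iff.mpr hy)]

theorem hom_lip {Ξ : X → X} (h1 : ∀ x : X, ‖x‖ = 1 → ‖Ξ x‖ = 1)
    (h2 : ∀ x y : X, ‖x‖ = 1 → ‖y‖ = 1 → ‖Ξ x - Ξ y‖ ≤ ‖x - y‖) (y y' : X) :
    ‖hom Ξ y - hom Ξ y'‖ ≤ 3 * ‖y - y'‖ := by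
  have hnn : |‖y‖ - ‖y'‖| ≤ ‖y - y'‖ := abs_norm_sub_norm_le y y'
  by_cases hy : y = 0
  · subst hy
    have : hom Ξ (0 : X) = 0 := by simp [hom]
    rw [this, zero_sub, norm_neg, zero_sub, norm_neg]
    by_cases hy' : y' = 0
    · subst hy'; simp [hom]
    · simp only [hom]
      rw [norm_smul, h1 _ (norm_inv_smul hy'), norm_norm, mul_one]
      nlinarith [norm_nonneg y']
  by_cases hy' : y' = 0
  · subst hy'
    have : hom Ξ (0 : X) = 0 := by simp [hom]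
    rw [this, sub_zero, sub_zero]
    simp only [hom]
    rw [norm_smul, h1 _ (norm_inv_smul hy), norm_norm, mul_one]
    nlinarith [norm_nonneg y]
  set a := ‖y‖⁻¹ • y with ha
  set a' := ‖y'‖⁻¹ • y' with ha'
  have ha1 : ‖a‖ = 1 := norm_inv_smul hy
  have ha1' : ‖a'‖ = 1 := norm_inv_smul hy'
  have hne : ‖y‖ ≠ 0 := norm_ne_zero_iff.mpr hy
  have hne' : ‖y'‖ ≠ 0 := norm_ne_zero_iff.mpr hy'
  have hya : y = ‖y‖ • a := by
    rw [ha, smul_smul, mul_inv_cancel₀ hne, one_smul]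
  have hya' : y' = ‖y'‖ • a' := by
    rw [ha', smul_smul, mul_inv_cancel₀ hne', one_smul]
  have hsplit : hom Ξ y - hom Ξ y' = ‖y'‖ • (Ξ a - Ξ a') + (‖y‖ - ‖y'‖) • Ξ a := by
    simp only [hom, ← ha, ← ha']
    simp only [smul_sub, sub_smul]
    abel
  have h3 : ‖y'‖ * ‖a - a'‖ ≤ |‖y‖ - ‖y'‖| + ‖y - y'‖ := by
    have e : ‖y'‖ • (a - a') = (‖y'‖ - ‖y‖) • a + (y - y') := by
      have : ‖y'‖ • (a - a') = ‖y'‖ • a - ‖y'‖ • a' := smul_sub _ _ _
      rw [this, ← hya']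
      have h4 : (‖y'‖ - ‖y‖) • a + (y - y') = ‖y'‖ • a - ‖y‖ • a + (y - y') := by rw [sub_smul]
      rw [h4, ← hya]
      abel
    have h5 : ‖‖y'‖ • (a - a')‖ = ‖y'‖ * ‖a - a'‖ := by
      rw [norm_smul, norm_norm]
    rw [← h5, e]
    calc _ ≤ ‖(‖y'‖ - ‖y‖) • a‖ + ‖y - y'‖ := norm_add_le _ _
      _ = |‖y‖ - ‖y'‖| + ‖y - y'‖ := by
        rw [norm_smul, ha1, mul_one, Real.norm_eq_abs, abs_sub_comm]
  rw [hsplit]
  calc _ ≤ ‖‖y'‖ • (Ξ a - Ξ a')‖ + ‖(‖y‖ - ‖y'‖) • Ξ a‖ := norm_add_le _ _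
    _ = ‖y'‖ * ‖Ξ a - Ξ a'‖ + |‖y‖ - ‖y'‖| := by
      rw [norm_smul, norm_smul, norm_norm, h1 a ha1, mul_one, Real.norm_eq_abs]
    _ ≤ ‖y'‖ * ‖a - a'‖ + |‖y‖ - ‖y'‖| := by
      have := h2 a a' ha1 ha1'
      have h6 : ‖y'‖ * ‖Ξ a - Ξ a'‖ ≤ ‖y'‖ * ‖a - a'‖ :=
        mul_le_mul_of_nonneg_left this (norm_nonneg _)
      linarith
    _ ≤ 3 * ‖y - y'‖ := by linarith

/-- Points of a segment between cofacial unit vectors are unit vectors. -/
theorem norm_comb_eq_one {x z : X} (hx : ‖x‖ = 1) (hz : ‖z‖ = 1) (hxz : ‖x + z‖ = 2) {s t : ℝ}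
    (hs : 0 ≤ s) (ht : 0 ≤ t) (hst : s + t = 1) : ‖s • x + t • z‖ = 1 := by
  have hne : x + z ≠ 0 := by
    intro h; rw [h, norm_zero] at hxz; norm_num at hxz
  obtain ⟨g, hg1, hg2⟩ := exists_dual_vector ℝ (x + z) (norm_ne_zero_iff.mpr hne)
  have hgx : g x ≤ 1 := by
    have := (le_abs_self (g x)).trans (g.le_opNorm x |>.trans_eq (by rw [hg1, hx, one_mul]))
    exact this
  have hgz : g z ≤ 1 := by
    have := (le_abs_self (g z)).trans (g.le_opNorm z |>.trans_eq (by rw [hg1, hz, one_mul]))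
    exact this
  have hsum : g x + g z = 2 := by
    have h := hg2
    rw [map_add, hxz] at h
    exact_mod_cast h
  have hgx1 : g x = 1 := by linarith
  have hgz1 : g z = 1 := by linarith
  apply le_antisymm
  · calc _ ≤ ‖s • x‖ + ‖t • z‖ := norm_add_le _ _
      _ = s + t := by
        rw [norm_smul, norm_smul, hx, hz, Real.norm_of_nonneg hs, Real.norm_of_nonneg ht]; ring
      _ = 1 := hst
  · have h := g.le_opNorm (s • x + t • z)
    rw [hg1, one_mul, map_add, map_smul, map_smul, hgx1, hgz1, Real.norm_eq_abs] at h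
    simp only [smul_eq_mul, mul_one, hst, abs_one] at h
    exact h

section Orbit

variable {Ξ : X → X} {x : ℕ → X}

/-- Displacement along an orbit. -/
noncomputable def disp (Ξ : X → X) (x : ℕ → X) (n : ℕ) : ℝ := ‖x n - Ξ (x n)‖

theorem disp_succ_le (h2 : ∀ a b : X, ‖a‖ = 1 → ‖b‖ = 1 → ‖Ξ a - Ξ b‖ ≤ ‖a - b‖)
    (hx1 : ∀ k, ‖x k‖ = 1) (hx : ∀ k, x (k + 1) = (4 / 5 : ℝ) • x k + (1 / 5 : ℝ) • Ξ (x k))
    (n : ℕ) : disp Ξ x (n + 1) ≤ disp Ξ x n := by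
  unfold disp
  have h := h2 (x (n + 1)) (x n) (hx1 _) (hx1 _)
  have e1 : x (n + 1) - x n = (1 / 5 : ℝ) • (Ξ (x n) - x n) := by
    rw [hx]
    module
  have e2 : x (n + 1) - Ξ (x n) = (4 / 5 : ℝ) • (x n - Ξ (x n)) := by
    rw [hx]
    module
  have h3 : ‖x (n + 1) - x n‖ = (1 / 5) * ‖x n - Ξ (x n)‖ := by
    rw [e1, norm_smul, norm_sub_rev]; norm_num
  have h4 : ‖x (n + 1) - Ξ (x n)‖ = (4 / 5) * ‖x n - Ξ (x n)‖ := by
    rw [e2, norm_smul]; norm_num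
  have h5 : x (n + 1) - Ξ (x (n + 1)) = (x (n + 1) - Ξ (x n)) + (Ξ (x n) - Ξ (x (n + 1))) := by abel
  rw [h5]
  calc _ ≤ ‖x (n + 1) - Ξ (x n)‖ + ‖Ξ (x n) - Ξ (x (n + 1))‖ := norm_add_le _ _
    _ ≤ _ := by
      rw [norm_sub_rev (Ξ (x n))]
      rw [h4]
      linarith

theorem disp_antitone (h2 : ∀ a b : X, ‖a‖ = 1 → ‖b‖ = 1 → ‖Ξ a - Ξ b‖ ≤ ‖a - b‖)
    (hx1 : ∀ k, ‖x k‖ = 1) (hx : ∀ k, x (k + 1) = (4 / 5 : ℝ) • x k + (1 / 5 : ℝ) • Ξ (x k)) :
    Antitone (disp Ξ x) :=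
  antitone_nat_of_succ_le (disp_succ_le h2 hx1 hx)

theorem orbit_dist (h2 : ∀ a b : X, ‖a‖ = 1 → ‖b‖ = 1 → ‖Ξ a - Ξ b‖ ≤ ‖a - b‖)
    (hx1 : ∀ k, ‖x k‖ = 1) (hx : ∀ k, x (k + 1) = (4 / 5 : ℝ) • x k + (1 / 5 : ℝ) • Ξ (x k))
    (i n : ℕ) : ‖x (i + n) - x i‖ ≤ (n : ℝ) * (1 / 5) * disp Ξ x i := by
  induction n with
  | zero => simp
  | succ n ih =>
    have e1 : x (i + n + 1) - x (i + n) = (1 / 5 : ℝ) • (Ξ (x (i + n)) - x (i + n)) := by
      rw [hx]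
      module
    have h3 : ‖x (i + n + 1) - x (i + n)‖ = (1 / 5) * disp Ξ x (i + n) := by
      rw [e1, norm_smul, norm_sub_rev]; norm_num; rfl
    have h4 : disp Ξ x (i + n) ≤ disp Ξ x i := disp_antitone h2 hx1 hx (Nat.le_add_right i n)
    have h5 : x (i + (n + 1)) - x i = (x (i + n + 1) - x (i + n)) + (x (i + n) - x i) := by
      rw [← add_assoc]; abel
    rw [h5]
    calc _ ≤ ‖x (i + n + 1) - x (i + n)‖ + ‖x (i + n) - x i‖ := norm_add_le _ _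
      _ ≤ _ := by
        rw [h3]; push_cast; linarith

/-- Ishikawa's inequality, with the constants of the step `1/5`. -/
theorem ishikawa (h2 : ∀ a b : X, ‖a‖ = 1 → ‖b‖ = 1 → ‖Ξ a - Ξ b‖ ≤ ‖a - b‖)
    (hx1 : ∀ k, ‖x k‖ = 1) (hx : ∀ k, x (k + 1) = (4 / 5 : ℝ) • x k + (1 / 5 : ℝ) • Ξ (x k))
    (n i : ℕ) :
    (1 + (n : ℝ) / 5) * disp Ξ x i ≤
      ‖Ξ (x (i + n)) - x i‖ + (5 / 4 : ℝ) ^ n * (disp Ξ x i - disp Ξ x (i + n)) := by
  induction n generalizing i with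
  | zero =>
    simp only [Nat.cast_zero, zero_div, add_zero, one_mul, pow_zero, sub_self, mul_zero]
    unfold disp
    rw [norm_sub_rev]
  | succ n ih =>
    have hIH := ih (i + 1)
    have eidx : i + 1 + n = i + (n + 1) := by omega
    rw [eidx] at hIH
    set A := ‖Ξ (x (i + (n + 1))) - x i‖ with hA
    set B := ‖Ξ (x (i + (n + 1))) - x (i + 1)‖ with hB
    set C := ‖x (i + (n + 1)) - x i‖ with hC
    have hdecomp : Ξ (x (i + (n + 1))) - x (i + 1) =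
        (4 / 5 : ℝ) • (Ξ (x (i + (n + 1))) - x i) +
          (1 / 5 : ℝ) • (Ξ (x (i + (n + 1))) - Ξ (x i)) := by
      rw [hx]
      module
    have hB_le : B ≤ (4 / 5) * A + (1 / 5) * C := by
      rw [hB, hdecomp]
      calc _ ≤ ‖(4 / 5 : ℝ) • (Ξ (x (i + (n + 1))) - x i)‖ +
            ‖(1 / 5 : ℝ) • (Ξ (x (i + (n + 1))) - Ξ (x i))‖ := norm_add_le _ _
        _ = (4 / 5) * A + (1 / 5) * ‖Ξ (x (i + (n + 1))) - Ξ (x i)‖ := by
          have e4 : ‖(4 / 5 : ℝ)‖ = 4 / 5 := by norm_num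
          have e5 : ‖(1 / 5 : ℝ)‖ = 1 / 5 := by norm_num
          rw [norm_smul, norm_smul, e4, e5]
        _ ≤ _ := by
          have := h2 _ _ (hx1 (i + (n + 1))) (hx1 i)
          linarith
    have hC_le : C ≤ ((n : ℝ) + 1) * (1 / 5) * disp Ξ x i := by
      have := orbit_dist h2 hx1 hx i (n + 1)
      push_cast at this
      exact this
    have hd : disp Ξ x (i + 1) ≤ disp Ξ x i := disp_succ_le h2 hx1 hx i
    have hpow : (1 + (n : ℝ) / 5) ≤ (5 / 4 : ℝ) ^ n := by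
      have h := one_add_mul_le_pow (a := (1 / 4 : ℝ)) (by norm_num) n
      have e : (1 + 1 / 4 : ℝ) = 5 / 4 := by norm_num
      rw [e] at h
      have hn : (0 : ℝ) ≤ n := Nat.cast_nonneg n
      nlinarith
    have hp1 : (5 / 4 : ℝ) ^ (n + 1) = (5 / 4) * (5 / 4 : ℝ) ^ n := by ring
    push_cast
    rw [hp1]
    set K := (5 / 4 : ℝ) ^ n with hK
    set ri := disp Ξ x i with hri
    set rj := disp Ξ x (i + 1) with hrj
    set rl := disp Ξ x (i + (n + 1)) with hrl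
    -- final arithmetic
    have hkey : (1 + ((n : ℝ) + 1) / 5) * ri ≤ A + (5 / 4) * K * (ri - rl) := by
      have h1 : (5 / 4) * B ≤ A + (1 / 4) * C := by linarith
      have h3 : (5 / 4) * ((1 + (n : ℝ) / 5) * rj) ≤ (5 / 4) * (B + K * (rj - rl)) := by
        apply mul_le_mul_of_nonneg_left hIH (by norm_num)
      have h4 : (0 : ℝ) ≤ (K - (1 + (n : ℝ) / 5)) * (ri - rj) :=
        mul_nonneg (by linarith) (by linarith)
      nlinarith
    exact hkey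

/-- Uniform asymptotic regularity: the displacement is small after a fixed number of steps. -/
theorem exists_uniform_time {ε : ℝ} (hε : 0 < ε) :
    ∃ N : ℕ, ∀ (Ξ : X → X) (x : ℕ → X),
      (∀ a : X, ‖a‖ = 1 → ‖Ξ a‖ = 1) →
      (∀ a b : X, ‖a‖ = 1 → ‖b‖ = 1 → ‖Ξ a - Ξ b‖ ≤ ‖a - b‖) →
      (∀ k, ‖x k‖ = 1) → (∀ k, x (k + 1) = (4 / 5 : ℝ) • x k + (1 / 5 : ℝ) • Ξ (x k)) →
      disp Ξ x N ≤ ε := by
  obtain ⟨n, hn⟩ : ∃ n : ℕ, 3 ≤ (1 + (n : ℝ) / 5) * ε := by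
    obtain ⟨n, hn⟩ := exists_nat_gt (15 / ε)
    refine ⟨n, ?_⟩
    have h1 : 15 < (n : ℝ) * ε := by
      rwa [div_lt_iff₀ hε] at hn
    nlinarith
  set K := (5 / 4 : ℝ) ^ n with hK
  have hKpos : 0 < K := by positivity
  obtain ⟨m, hm⟩ := exists_nat_gt (2 * K)
  refine ⟨m * n, fun Ξ x h1 h2 hx1 hx => ?_⟩
  by_contra hcon
  push Not at hcon
  have hanti := disp_antitone h2 hx1 hx
  have hstep : ∀ j : ℕ, j ≤ m → disp Ξ x (j * n) ≤ 2 - (j : ℝ) / K := by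
    intro j
    induction j with
    | zero =>
      intro _
      simp only [Nat.cast_zero, zero_div, sub_zero, zero_mul]
      unfold disp
      calc _ ≤ ‖x 0‖ + ‖Ξ (x 0)‖ := norm_sub_le _ _
        _ = 2 := by rw [hx1 0, h1 _ (hx1 0)]; norm_num
    | succ j ih =>
      intro hj
      have ih' := ih (by omega)
      set i := j * n with hi
      have hidx : (j + 1) * n = i + n := by rw [hi]; ring
      have hli : m * n ≥ i := by
        rw [hi]; exact Nat.mul_le_mul_right n (by omega)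
      have hri : ε < disp Ξ x i := lt_of_lt_of_le hcon (hanti hli)
      have hI := ishikawa h2 hx1 hx n i
      have hb : ‖Ξ (x (i + n)) - x i‖ ≤ 2 := by
        calc _ ≤ ‖Ξ (x (i + n))‖ + ‖x i‖ := norm_sub_le _ _
          _ = 2 := by rw [h1 _ (hx1 _), hx1]; norm_num
      have h3 : 3 ≤ (1 + (n : ℝ) / 5) * disp Ξ x i := by
        have hn0 : (0 : ℝ) ≤ 1 + (n : ℝ) / 5 := by positivity
        have : (1 + (n : ℝ) / 5) * ε ≤ (1 + (n : ℝ) / 5) * disp Ξ x i :=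
          mul_le_mul_of_nonneg_left hri.le hn0
        linarith
      have h4 : 1 ≤ K * (disp Ξ x i - disp Ξ x (i + n)) := by linarith
      have h5 : 1 / K ≤ disp Ξ x i - disp Ξ x (i + n) := by
        rw [div_le_iff₀ hKpos]; linarith
      rw [hidx]
      push_cast
      have h6 : ((j : ℝ) + 1) / K = (j : ℝ) / K + 1 / K := by ring
      rw [h6]
      linarith
  have hfin := hstep m le_rfl
  have hnn : 0 ≤ disp Ξ x (m * n) := norm_nonneg _
  have h7 : 2 < (m : ℝ) / K := by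
    rw [lt_div_iff₀ hKpos]; linarith
  linarith

end Orbit

/-- Picard iteration: `J` has dense range in the sphere (no completeness needed). -/
theorem exists_approx_preimage {Ξ : X → X} (h1 : ∀ x : X, ‖x‖ = 1 → ‖Ξ x‖ = 1)
    (h2 : ∀ x y : X, ‖x‖ = 1 → ‖y‖ = 1 → ‖Ξ x - Ξ y‖ ≤ ‖x - y‖)
    (h3 : ∀ x : X, ‖x‖ = 1 → ‖x + Ξ x‖ = 2) {b : X} (hb : ‖b‖ = 1) {η : ℝ} (hη : 0 < η) :
    ∃ a : X, ‖a‖ = 1 ∧ ‖(4 / 5 : ℝ) • a + (1 / 5 : ℝ) • Ξ a - b‖ ≤ η := by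
  classical
  let G : X → X := fun y => (5 / 4 : ℝ) • b - (1 / 4 : ℝ) • hom Ξ y
  let z : ℕ → X := fun k => G^[k] b
  have hz : ∀ k, z (k + 1) = G (z k) := fun k => Function.iterate_succ_apply' G k b
  have hG : ∀ u v : X, ‖G u - G v‖ ≤ (3 / 4) * ‖u - v‖ := by
    intro u v
    have e : G u - G v = -((1 / 4 : ℝ) • (hom Ξ u - hom Ξ v)) := by
      simp only [G, smul_sub]
      abel
    rw [e, norm_neg, norm_smul]
    have := hom_lip h1 h2 u v
    norm_num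
    linarith
  have hstep : ∀ k : ℕ, ‖z (k + 1) - z k‖ ≤ (3 / 4 : ℝ) ^ k * ‖z 1 - z 0‖ := by
    intro k
    induction k with
    | zero => simp
    | succ k ih =>
      have e : z (k + 1 + 1) - z (k + 1) = G (z (k + 1)) - G (z k) := by
        rw [hz (k + 1)]
        exact congrArg (fun t => G (z (k + 1)) - t) (hz k)
      rw [e]
      calc _ ≤ (3 / 4) * ‖z (k + 1) - z k‖ := hG _ _
        _ ≤ (3 / 4) * ((3 / 4 : ℝ) ^ k * ‖z 1 - z 0‖) := by
          apply mul_le_mul_of_nonneg_left ih (by norm_num)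
        _ = (3 / 4 : ℝ) ^ (k + 1) * ‖z 1 - z 0‖ := by ring
  -- a step with small increment
  set θ : ℝ := min (η / 4) (1 / 2) with hθ
  have hθ0 : 0 < θ := lt_min (by positivity) (by norm_num)
  have hθ1 : θ ≤ 1 / 2 := min_le_right _ _
  have hθ2 : θ ≤ η / 4 := min_le_left _ _
  obtain ⟨k, hk⟩ : ∃ k : ℕ, (3 / 4 : ℝ) ^ k * ‖z 1 - z 0‖ < θ := by
    have hlim : Filter.Tendsto (fun k : ℕ => (3 / 4 : ℝ) ^ k * ‖z 1 - z 0‖) Filter.atTop
        (nhds (0 * ‖z 1 - z 0‖)) :=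
      (tendsto_pow_atTop_nhds_zero_of_lt_one (by norm_num) (by norm_num)).mul_const _
    rw [zero_mul] at hlim
    exact (hlim.eventually (gt_mem_nhds hθ0)).exists
  set y := z k with hy
  have hinc : ‖z (k + 1) - y‖ < θ := lt_of_le_of_lt (hstep k) hk
  -- the relation
  have hrel : (4 / 5 : ℝ) • z (k + 1) + (1 / 5 : ℝ) • hom Ξ y = b := by
    rw [hz k]
    simp only [G]
    module
  have hJ : ‖(4 / 5 : ℝ) • y + (1 / 5 : ℝ) • hom Ξ y - b‖ ≤ θ := by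
    have e : (4 / 5 : ℝ) • y + (1 / 5 : ℝ) • hom Ξ y - b = (4 / 5 : ℝ) • (y - z (k + 1)) := by
      rw [← hrel]
      module
    rw [e, norm_smul, norm_sub_rev]
    have : ‖(4 / 5 : ℝ)‖ = 4 / 5 := by norm_num
    rw [this]
    have h0 := norm_nonneg (z (k + 1) - y)
    linarith
  -- `y` is nonzero
  have hy0 : y ≠ 0 := by
    intro h
    rw [h] at hJ
    have e : (4 / 5 : ℝ) • (0 : X) + (1 / 5 : ℝ) • hom Ξ (0 : X) - b = -b := by
      simp [hom]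
    rw [e, norm_neg, hb] at hJ
    linarith
  have hne : ‖y‖ ≠ 0 := norm_ne_zero_iff.mpr hy0
  have hpos : 0 < ‖y‖ := norm_pos_iff.mpr hy0
  set a := ‖y‖⁻¹ • y with ha
  have ha1 : ‖a‖ = 1 := norm_inv_smul hy0
  have hya : y = ‖y‖ • a := by rw [ha, smul_smul, mul_inv_cancel₀ hne, one_smul]
  have hform : (4 / 5 : ℝ) • y + (1 / 5 : ℝ) • hom Ξ y =
      ‖y‖ • ((4 / 5 : ℝ) • a + (1 / 5 : ℝ) • Ξ a) := by
    simp only [hom, ← ha]
    nth_rewrite 1 [hya]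
    module
  have hseg : ‖(4 / 5 : ℝ) • a + (1 / 5 : ℝ) • Ξ a‖ = 1 :=
    norm_comb_eq_one ha1 (h1 a ha1) (h3 a ha1) (by norm_num) (by norm_num) (by norm_num)
  have hnorm : |‖y‖ - 1| ≤ θ := by
    have h4 : ‖(4 / 5 : ℝ) • y + (1 / 5 : ℝ) • hom Ξ y‖ = ‖y‖ := by
      rw [hform, norm_smul, hseg, norm_norm, mul_one]
    have h5 := abs_norm_sub_norm_le ((4 / 5 : ℝ) • y + (1 / 5 : ℝ) • hom Ξ y) b
    rw [h4, hb] at h5
    exact h5.trans hJ
  refine ⟨a, ha1, ?_⟩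
  set c := (4 / 5 : ℝ) • a + (1 / 5 : ℝ) • Ξ a with hc
  have e2 : c - b = ((4 / 5 : ℝ) • y + (1 / 5 : ℝ) • hom Ξ y - b) + (1 - ‖y‖) • c := by
    rw [hform]
    module
  rw [e2]
  calc _ ≤ ‖(4 / 5 : ℝ) • y + (1 / 5 : ℝ) • hom Ξ y - b‖ + ‖(1 - ‖y‖) • c‖ := norm_add_le _ _
    _ ≤ θ + θ := by
      apply add_le_add hJ
      rw [norm_smul, hseg, mul_one, Real.norm_eq_abs, abs_sub_comm]
      exact hnorm
    _ ≤ η := by linarith

/-- **Theorem A**: a nonexpansive self map of the unit sphere of a normed space with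
`‖x + Ξ x‖ = 2` is the identity. -/
theorem eq_self_of_cofacial {Ξ : X → X} (h1 : ∀ x : X, ‖x‖ = 1 → ‖Ξ x‖ = 1)
    (h2 : ∀ x y : X, ‖x‖ = 1 → ‖y‖ = 1 → ‖Ξ x - Ξ y‖ ≤ ‖x - y‖)
    (h3 : ∀ x : X, ‖x‖ = 1 → ‖x + Ξ x‖ = 2) {y : X} (hy : ‖y‖ = 1) : Ξ y = y := by
  classical
  -- forward orbits
  let step : X → X := fun a => (4 / 5 : ℝ) • a + (1 / 5 : ℝ) • Ξ a
  have hstep1 : ∀ a : X, ‖a‖ = 1 → ‖step a‖ = 1 := fun a ha =>
    norm_comb_eq_one ha (h1 a ha) (h3 a ha) (by norm_num) (by norm_num) (by norm_num)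
  have hstepN : ∀ a b : X, ‖a‖ = 1 → ‖b‖ = 1 → ‖step a - step b‖ ≤ ‖a - b‖ := by
    intro a b ha hb
    have e : step a - step b = (4 / 5 : ℝ) • (a - b) + (1 / 5 : ℝ) • (Ξ a - Ξ b) := by
      simp only [step]
      module
    rw [e]
    calc _ ≤ ‖(4 / 5 : ℝ) • (a - b)‖ + ‖(1 / 5 : ℝ) • (Ξ a - Ξ b)‖ := norm_add_le _ _
      _ = (4 / 5) * ‖a - b‖ + (1 / 5) * ‖Ξ a - Ξ b‖ := by
        rw [norm_smul, norm_smul]; norm_num
      _ ≤ _ := by
        have := h2 a b ha hb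
        linarith
  let orb : X → ℕ → X := fun a n => step^[n] a
  have horb1 : ∀ a : X, ‖a‖ = 1 → ∀ n, ‖orb a n‖ = 1 := by
    intro a ha n
    induction n with
    | zero => simpa [orb] using ha
    | succ n ih =>
      have : orb a (n + 1) = step (orb a n) := Function.iterate_succ_apply' step n a
      rw [this]
      exact hstep1 _ ih
  have horb2 : ∀ a n, orb a (n + 1) = (4 / 5 : ℝ) • orb a n + (1 / 5 : ℝ) • Ξ (orb a n) := by
    intro a n
    exact Function.iterate_succ_apply' step n a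
  -- dense range of the iterates
  have hsurj : ∀ (N : ℕ) (b : X), ‖b‖ = 1 → ∀ η > 0, ∃ a : X, ‖a‖ = 1 ∧ ‖orb a N - b‖ ≤ η := by
    intro N
    induction N with
    | zero =>
      intro b hb η hη
      refine ⟨b, hb, ?_⟩
      simpa [orb] using hη.le
    | succ N ih =>
      intro b hb η hη
      obtain ⟨c, hc1, hc2⟩ := exists_approx_preimage h1 h2 h3 hb (half_pos hη)
      obtain ⟨a, ha1, ha2⟩ := ih c hc1 (η / 2) (half_pos hη)
      refine ⟨a, ha1, ?_⟩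
      have e : orb a (N + 1) = step (orb a N) := Function.iterate_succ_apply' step N a
      have e2 : orb a (N + 1) - b = (step (orb a N) - step c) + (step c - b) := by
        rw [e]; abel
      rw [e2]
      calc _ ≤ ‖step (orb a N) - step c‖ + ‖step c - b‖ := norm_add_le _ _
        _ ≤ ‖orb a N - c‖ + ‖step c - b‖ := by
          have := hstepN _ _ (horb1 a ha1 N) hc1
          linarith
        _ ≤ η := by
          have hc3 : ‖step c - b‖ ≤ η / 2 := hc2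
          linarith
  -- conclude
  have hsmall : ∀ ε > 0, ‖y - Ξ y‖ ≤ ε := by
    intro ε hε
    obtain ⟨N, hN⟩ := exists_uniform_time (X := X) (half_pos hε)
    obtain ⟨a, ha1, ha2⟩ := hsurj N y hy (ε / 4) (by positivity)
    have h4 := hN Ξ (orb a) h1 h2 (horb1 a ha1) (horb2 a)
    unfold disp at h4
    have h5 := h2 _ _ (horb1 a ha1 N) hy
    have e : y - Ξ y = (orb a N - Ξ (orb a N)) + (Ξ (orb a N) - Ξ y) - (orb a N - y) := by abel
    rw [e]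
    calc _ ≤ ‖(orb a N - Ξ (orb a N)) + (Ξ (orb a N) - Ξ y)‖ + ‖orb a N - y‖ := norm_sub_le _ _
      _ ≤ ‖orb a N - Ξ (orb a N)‖ + ‖Ξ (orb a N) - Ξ y‖ + ‖orb a N - y‖ := by
        have := norm_add_le (orb a N - Ξ (orb a N)) (Ξ (orb a N) - Ξ y)
        linarith
      _ ≤ ε := by linarith
  have h0 : ‖y - Ξ y‖ = 0 := by
    apply le_antisymm _ (norm_nonneg _)
    exact le_of_forall_pos_le_add (by simpa using hsmall)
  exact (sub_eq_zero.mp (norm_eq_zero.mp h0)).symm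

/-- **Oddness for all normed spaces**: a surjective isometry of the unit sphere of a normed space
onto the unit sphere of a normed space satisfies `f (-x) = - f x`. -/
theorem odd_of_isSphereIso {f : X → Y} (hf : IsSphereIso f) {x : X} (hx : ‖x‖ = 1) :
    f (-x) = -f x := by
  classical
  -- the inverse
  have hinv : ∀ z : Y, ‖z‖ = 1 → ∃ a : X, ‖a‖ = 1 ∧ f a = z := hf.surj
  choose! g hg1 hg2 using hinv
  -- the map `Ξ = g ∘ (-) ∘ f ∘ (-)`
  let Ξ : X → X := fun a => g (-f (-a))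
  have hneg : ∀ a : X, ‖a‖ = 1 → ‖-f (-a)‖ = 1 := fun a ha => by
    rw [norm_neg]; exact hf.norm_eq _ (by rwa [norm_neg])
  have h1 : ∀ a : X, ‖a‖ = 1 → ‖Ξ a‖ = 1 := fun a ha => hg1 _ (hneg a ha)
  have hfΞ : ∀ a : X, ‖a‖ = 1 → f (Ξ a) = -f (-a) := fun a ha => hg2 _ (hneg a ha)
  have h2 : ∀ a b : X, ‖a‖ = 1 → ‖b‖ = 1 → ‖Ξ a - Ξ b‖ ≤ ‖a - b‖ := by
    intro a b ha hb
    have e1 := hf.iso (Ξ a) (Ξ b) (h1 a ha) (h1 b hb)
    rw [hfΞ a ha, hfΞ b hb] at e1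
    have e2 := hf.iso (-a) (-b) (by rwa [norm_neg]) (by rwa [norm_neg])
    have e3 : -f (-a) - -f (-b) = -(f (-a) - f (-b)) := by abel
    rw [e3, norm_neg, e2] at e1
    have e4 : -a - -b = -(a - b) := by abel
    rw [e4, norm_neg] at e1
    exact e1.symm.le
  have h3 : ∀ a : X, ‖a‖ = 1 → ‖a + Ξ a‖ = 2 := by
    intro a ha
    have ha' : ‖-a‖ = 1 := by rwa [norm_neg]
    have e1 := hf.iso (Ξ a) (-a) (h1 a ha) ha'
    rw [hfΞ a ha] at e1
    have e2 : -f (-a) - f (-a) = -((2 : ℝ) • f (-a)) := by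
      rw [two_smul]; abel
    rw [e2, norm_neg, norm_smul, hf.norm_eq _ ha'] at e1
    have e3 : a + Ξ a = Ξ a - -a := by abel
    rw [e3, ← e1]
    norm_num
  have hfix := eq_self_of_cofacial h1 h2 h3 hx
  have := hfΞ x hx
  rw [hfix] at this
  rw [this, neg_neg]

end Vale.Agent.Lib.P084.Inf
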