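/-
Additivity on unit triples for sphere isometries when every bounded subset of the domain is dentable
(the Radon-Nikodym property, in the form of Rieffel, Maynard, Huff, Davis-Phelps).

Notation: a `Y`-triple is `(x, y, z)` on the unit sphere with `f x + f y + f z = 0`; its defect is
`x + y + z`.  Fix `x`.  On `E = {t : ‖t‖ = 1, ‖t + x‖ = 1}` the map
`A t = - x - g (- f x - f t)` is an isometry with `A t = t - (x + t + σ t)`, `σ t = g (- f x - f t)`.
Along an orbit the defects have constant norm `d`, the points `u = x - defect` are unit, their Cesaro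
means tend to `x`, and each of them again is a coordinate of a `Y`-triple with defect of norm `d`.
So the set `W d` of coordinates of `Y`-triples with defect of norm `d` is not dentable.
-/
import Vale.Agent.Lib.P084.Defs
import Vale.Agent.Lib.P084.UC.APlus

namespace Vale.Agent.Lib.P084.Inf

open Vale.Agent.Lib.P084.UC
open Metric

variable {X Y : Type*} [NormedAddCommGroup X] [NormedSpace ℝ X] [NormedAddCommGroup Y]
  [NormedSpace ℝ Y]

/-- Every nonempty bounded subset is dentable.  For a Banach space this is equivalent to the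
Radon-Nikodym property. -/
def AllBoundedDentable (X : Type*) [NormedAddCommGroup X] [NormedSpace ℝ X] : Prop :=
  ∀ A : Set X, A.Nonempty → Bornology.IsBounded A → IsDentableSet A

/-- The coordinates of triples `f x + f y + f z = 0` on the sphere with defect of norm `d`. -/
def DefectSet (f : X → Y) (d : ℝ) : Set X :=
  {x | ‖x‖ = 1 ∧ ∃ y z : X, ‖y‖ = 1 ∧ ‖z‖ = 1 ∧ f x + f y + f z = 0 ∧ ‖x + y + z‖ = d}

section

variable {f : X → Y} (hf : IsSphereIso f) (hodd : ∀ x : X, ‖x‖ = 1 → f (-x) = - f x)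

include hf hodd

/-- Oddness gives the norm of a sum. -/
theorem norm_f_add {a b : X} (ha : ‖a‖ = 1) (hb : ‖b‖ = 1) : ‖f a + f b‖ = ‖a + b‖ := by
  have h := hf.iso a (-b) ha (by rw [norm_neg]; exact hb)
  rw [hodd b hb, sub_neg_eq_add, sub_neg_eq_add] at h
  exact h

/-- One step: from a triple with defect of norm `d` at `x` to the next. -/
theorem defect_mem {x t s u : X} {d : ℝ} (hx : ‖x‖ = 1) (ht : ‖t‖ = 1) (hs : ‖s‖ = 1)
    (hfs : f x + f t + f s = 0) (hu : u = - (t + s)) (hd : ‖x + t + s‖ = d) :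
    u ∈ DefectSet f d ∧ ‖u - x‖ = d := by
  have hts : ‖f t + f s‖ = 1 := by
    have : f t + f s = - f x := by
      have : f t + f s = (f x + f t + f s) - f x := by abel
      rw [this, hfs, zero_sub]
    rw [this, norm_neg]; exact hf.norm_eq x hx
  have hun : ‖u‖ = 1 := by
    rw [hu, norm_neg, ← norm_f_add hf hodd ht hs]; exact hts
  have hud : ‖u - x‖ = d := by
    rw [← hd, hu, ← norm_neg]
    congr 1
    abel
  refine ⟨⟨hun, ?_⟩, hud⟩
  have hut : ‖f u + f t‖ = 1 := by
    rw [norm_f_add hf hodd hun ht, hu]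
    have : -(t + s) + t = -s := by abel
    rw [this, norm_neg]; exact hs
  obtain ⟨v, hv, hfv⟩ := hf.surj (-(f u + f t)) (by rw [norm_neg]; exact hut)
  refine ⟨t, v, ht, hv, by rw [hfv]; abel, ?_⟩
  have h1 : u + t + v = v - s := by rw [hu]; abel
  rw [h1, ← hf.iso v s hv hs, hfv, ← hud, ← hf.iso u x hun hx]
  have h2 : -(f u + f t) - f s = f x - f u := by
    have h3 : f t + f s = - f x := by
      have : f t + f s = (f x + f t + f s) - f x := by abel
      rw [this, hfs, zero_sub]
    have : -(f u + f t) - f s = - f u - (f t + f s) := by abel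
    rw [this, h3]; abel
  rw [h2, ← norm_neg]
  congr 1
  abel

end

/-- Every point of the defect set is in the closed convex hull of the points of the defect set at
distance `d` from it. -/
theorem mem_closure_convexHull_defect {f : X → Y} (hf : IsSphereIso f)
    (hodd : ∀ x : X, ‖x‖ = 1 → f (-x) = - f x) {d : ℝ} (hd : 0 < d) {x : X}
    (hx : x ∈ DefectSet f d) : x ∈ closure (convexHull ℝ (DefectSet f d \ ball x d)) := by
  classical
  obtain ⟨hx1, y₀, z₀, hy₀, hz₀, hfs₀, hd₀⟩ := hx
  have hfx := hf.norm_eq x hx1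
  -- the inverse
  obtain ⟨g, hg⟩ := hf.exists_inv
  -- the map
  let σ : X → X := fun t => g (- f x - f t)
  let A : X → X := fun t => - x - σ t
  let E : X → Prop := fun t => ‖t‖ = 1 ∧ ‖t + x‖ = 1
  have hE_sum : ∀ t, E t → ‖- f x - f t‖ = 1 := by
    intro t ht
    have h1 := norm_f_add hf hodd hx1 ht.1
    have h2 : - f x - f t = -(f x + f t) := by abel
    rw [h2, norm_neg, h1, add_comm]; exact ht.2
  have hσ1 : ∀ t, E t → ‖σ t‖ = 1 := fun t ht => (hg _ (hE_sum t ht)).1
  have hσf : ∀ t, E t → f (σ t) = - f x - f t := fun t ht => (hg _ (hE_sum t ht)).2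
  have hxσ : ∀ t, E t → ‖x + σ t‖ = 1 := by
    intro t ht
    rw [← norm_f_add hf hodd hx1 (hσ1 t ht), hσf t ht]
    have : f x + (- f x - f t) = - f t := by abel
    rw [this, norm_neg]; exact hf.norm_eq t ht.1
  have hAE : ∀ t, E t → E (A t) := by
    intro t ht
    constructor
    · have : A t = -(x + σ t) := by simp only [A]; abel
      rw [this, norm_neg]; exact hxσ t ht
    · have : A t + x = - σ t := by simp only [A]; abel
      rw [this, norm_neg]; exact hσ1 t ht
  have hAiso : ∀ t t', E t → E t' → ‖A t - A t'‖ = ‖t - t'‖ := by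
    intro t t' ht ht'
    have h1 : A t - A t' = σ t' - σ t := by simp only [A]; abel
    rw [h1, ← hf.iso (σ t') (σ t) (hσ1 t' ht') (hσ1 t ht), hσf t ht, hσf t' ht', ←
      hf.iso t t' ht.1 ht'.1]
    congr 1
    abel
  -- initial point
  have hy₀E : E y₀ := by
    refine ⟨hy₀, ?_⟩
    rw [add_comm, ← norm_f_add hf hodd hx1 hy₀]
    have : f x + f y₀ = - f z₀ := by
      have : f x + f y₀ = (f x + f y₀ + f z₀) - f z₀ := by abel
      rw [this, hfs₀, zero_sub]
    rw [this, norm_neg]; exact hf.norm_eq z₀ hz₀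
  have hσ₀ : σ y₀ = z₀ := by
    have h1 : f (σ y₀) = f z₀ := by
      rw [hσf y₀ hy₀E]
      have : f z₀ = (f x + f y₀ + f z₀) - f x - f y₀ := by abel
      rw [this, hfs₀]; abel
    have h2 := hf.iso (σ y₀) z₀ (hσ1 y₀ hy₀E) hz₀
    rw [h1, sub_self, norm_zero] at h2
    exact sub_eq_zero.1 (norm_eq_zero.1 h2.symm)
  -- orbit
  let t : ℕ → X := fun n => A^[n] y₀
  have htE : ∀ n, E (t n) := by
    intro n
    induction n with
    | zero => exact hy₀E
    | succ n ih =>
      have : t (n + 1) = A (t n) := Function.iterate_succ_apply' A n y₀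
      rw [this]; exact hAE _ ih
  have htsucc : ∀ n, t (n + 1) = A (t n) := fun n => Function.iterate_succ_apply' A n y₀
  have hstep : ∀ n, ‖t n - t (n + 1)‖ = d := by
    intro n
    induction n with
    | zero =>
      rw [htsucc 0]
      have : t 0 = y₀ := rfl
      rw [this, ← hd₀]
      have h1 : y₀ - A y₀ = x + y₀ + z₀ := by
        simp only [A]; rw [hσ₀]; abel
      rw [h1]
    | succ n ih =>
      rw [htsucc (n + 1), htsucc n, hAiso _ _ (htE n) (hAE _ (htE n)), ← htsucc n]
      exact ih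
  -- the points
  let u : ℕ → X := fun n => x - (t n - t (n + 1))
  have hu_eq : ∀ n, u n = -(t n + σ (t n)) := by
    intro n
    simp only [u]
    rw [htsucc n]
    simp only [A]
    abel
  have hu_mem : ∀ n, u n ∈ DefectSet f d \ ball x d := by
    intro n
    have hσn : f x + f (t n) + f (σ (t n)) = 0 := by
      rw [hσf _ (htE n)]; abel
    have hdn : ‖x + t n + σ (t n)‖ = d := by
      rw [← hstep n, htsucc n]
      simp only [A]
      congr 1
      abel
    have := defect_mem hf hodd hx1 (htE n).1 (hσ1 _ (htE n)) hσn (hu_eq n) hdn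
    refine ⟨this.1, ?_⟩
    simp only [mem_ball, dist_eq_norm, not_lt]
    rw [this.2]
  -- the means
  rw [Metric.mem_closure_iff]
  intro ε hε
  obtain ⟨N, hN⟩ := exists_nat_gt (2 / ε)
  have hNpos : (0 : ℝ) < (N : ℝ) + 1 := by positivity
  let m : X := ((N : ℝ) + 1)⁻¹ • ∑ k ∈ Finset.range (N + 1), u k
  have hm_mem : m ∈ convexHull ℝ (DefectSet f d \ ball x d) := by
    have hc := convex_convexHull ℝ (DefectSet f d \ ball x d)
    have : m = ∑ k ∈ Finset.range (N + 1), ((N : ℝ) + 1)⁻¹ • u k := by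
      simp only [m]
      rw [Finset.smul_sum]
    rw [this]
    refine hc.sum_mem (fun _ _ => by positivity) ?_ (fun k _ => subset_convexHull ℝ _ (hu_mem k))
    rw [Finset.sum_const, Finset.card_range, nsmul_eq_mul]
    push_cast
    field_simp
  refine ⟨m, hm_mem, ?_⟩
  have htele : ∀ n : ℕ, ∑ k ∈ Finset.range n, u k = (n : ℝ) • x - (t 0 - t n) := by
    intro n
    induction n with
    | zero => simp
    | succ n ih =>
      rw [Finset.sum_range_succ, ih]
      simp only [u]
      push_cast
      rw [add_smul, one_smul]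
      abel
  have hm_eq : m = x - ((N : ℝ) + 1)⁻¹ • (t 0 - t (N + 1)) := by
    simp only [m]
    rw [htele (N + 1)]
    push_cast
    rw [smul_sub, smul_smul, inv_mul_cancel₀ hNpos.ne', one_smul]
  rw [dist_eq_norm, hm_eq]
  have h1 : x - (x - ((N : ℝ) + 1)⁻¹ • (t 0 - t (N + 1))) = ((N : ℝ) + 1)⁻¹ • (t 0 - t (N + 1)) := by
    abel
  rw [h1, norm_smul, norm_inv, Real.norm_of_nonneg hNpos.le]
  have h2 : ‖t 0 - t (N + 1)‖ ≤ 2 := by
    have := norm_sub_le (t 0) (t (N + 1))
    rw [(htE 0).1, (htE (N + 1)).1] at this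
    linarith
  have h3 : 2 < ε * ((N : ℝ) + 1) := by
    have h4 : 2 / ε < (N : ℝ) + 1 := by linarith
    rw [div_lt_iff₀ hε] at h4
    linarith
  calc ((N : ℝ) + 1)⁻¹ * ‖t 0 - t (N + 1)‖ ≤ ((N : ℝ) + 1)⁻¹ * 2 := by
        exact mul_le_mul_of_nonneg_left h2 (by positivity)
    _ < ε := by
        rw [inv_mul_lt_iff₀ hNpos]
        linarith

/-- **Main lemma.**  If every bounded subset of `X` is dentable then `f x + f y + f z = 0` on the
sphere forces `x + y + z = 0`. -/
theorem sum_eq_zero_of_dentable {f : X → Y} (hf : IsSphereIso f)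
    (hodd : ∀ x : X, ‖x‖ = 1 → f (-x) = - f x) (hD : AllBoundedDentable X) {x y z : X}
    (hx : ‖x‖ = 1) (hy : ‖y‖ = 1) (hz : ‖z‖ = 1) (hs : f x + f y + f z = 0) : x + y + z = 0 := by
  by_contra hne
  set d := ‖x + y + z‖ with hd
  have hd0 : 0 < d := norm_pos_iff.2 hne
  have hmem : x ∈ DefectSet f d := ⟨hx, y, z, hy, hz, hs, rfl⟩
  have hbdd : Bornology.IsBounded (DefectSet f d) := by
    refine (isBounded_closedBall (x := (0 : X)) (r := 1)).subset ?_
    intro a ha
    simp only [mem_closedBall, dist_zero_right]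
    exact le_of_eq ha.1
  obtain ⟨a, ha, hna⟩ := hD _ ⟨x, hmem⟩ hbdd d hd0
  exact hna (mem_closure_convexHull_defect hf hodd hd0 ha)

/-- Additivity of `f` on unit triples when the domain has all bounded subsets dentable. -/
theorem additive_of_dentable {f : X → Y} (hf : IsSphereIso f)
    (hodd : ∀ x : X, ‖x‖ = 1 → f (-x) = - f x) (hD : AllBoundedDentable X) {a b : X}
    (ha : ‖a‖ = 1) (hb : ‖b‖ = 1) (hab : ‖a + b‖ = 1) : f (a + b) = f a + f b := by
  have h1 : ‖f a + f b‖ = 1 := by rw [norm_f_add hf hodd ha hb]; exact hab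
  obtain ⟨c, hc, hfc⟩ := hf.surj (-(f a + f b)) (by rw [norm_neg]; exact h1)
  have hs : f a + f b + f c = 0 := by rw [hfc]; abel
  have h2 := sum_eq_zero_of_dentable hf hodd hD ha hb hc hs
  have h3 : a + b = - c := by
    have : a + b = (a + b + c) - c := by abel
    rw [this, h2, zero_sub]
  rw [h3, hodd c hc, hfc, neg_neg]

end Vale.Agent.Lib.P084.Inf
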