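/-
Oddness of surjective isometries of unit spheres of arbitrary real normed spaces, by a flow
argument: an isometry `T` of the unit sphere with `‖x + T x‖ = 2` for all `x` is the identity.
Near the supremum of the displacement `D y = T y - y` the backward flow `y ↦ y - ε D y` stays on the
sphere up to `O(ε²)` and keeps the value of a fixed norming functional of the displacement, so this
functional decreases at a fixed rate along the flow, which contradicts its boundedness on the sphere.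
-/
import Mathlib

set_option linter.unusedSectionVars false

namespace Vale.Agent.Lib.P084.Inf

open Metric

variable {X Y : Type*} [NormedAddCommGroup X] [NormedSpace ℝ X]
  [NormedAddCommGroup Y] [NormedSpace ℝ Y]

/-- A norm one functional norming two unit vectors whose sum has norm two. -/
theorem exists_common {x z : X} (hx : ‖x‖ = 1) (hz : ‖z‖ = 1) (h : ‖x + z‖ = 2) :
    ∃ g : X →L[ℝ] ℝ, ‖g‖ ≤ 1 ∧ g x = 1 ∧ g z = 1 := by
  have h0 : x + z ≠ 0 := by
    intro h0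
    rw [h0, norm_zero] at h
    norm_num at h
  obtain ⟨g, hg1, hg2⟩ := exists_dual_vector ℝ (x + z) (norm_ne_zero_iff.mpr h0)
  have hg3 : ∀ v : X, |g v| ≤ ‖v‖ := by
    intro v
    have := g.le_opNorm v
    rw [hg1, one_mul, Real.norm_eq_abs] at this
    exact this
  have hgx := (abs_le.mp (hg3 x)).2
  have hgz := (abs_le.mp (hg3 z)).2
  rw [hx] at hgx
  rw [hz] at hgz
  have hsum : g x + g z = 2 := by
    have := hg2
    rw [map_add, h] at this
    simpa using this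
  exact ⟨g, hg1.le, by linarith, by linarith⟩

theorem abs_apply_le {g : X →L[ℝ] ℝ} (hg : ‖g‖ ≤ 1) (v : X) : |g v| ≤ ‖v‖ := by
  have := g.le_opNorm v
  rw [Real.norm_eq_abs] at this
  exact this.trans (by nlinarith [norm_nonneg v])

section Flow

variable {T : X → X}

/-- The second order estimate for one step of the backward flow. -/
theorem step_norm (hT1 : ∀ x : X, ‖x‖ = 1 → ‖T x‖ = 1)
    (hiso : ∀ x y : X, ‖x‖ = 1 → ‖y‖ = 1 → ‖T x - T y‖ = ‖x - y‖)
    (h2 : ∀ x : X, ‖x‖ = 1 → ‖x + T x‖ = 2) {y : X} (hy : ‖y‖ = 1) {ε : ℝ} (hε : 0 < ε)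
    (hε2 : ε ≤ 1 / 2) :
    1 ≤ ‖y - ε • (T y - y)‖ ∧ ‖y - ε • (T y - y)‖ - 1 ≤ 2 * ε ^ 2 * ‖T y - y‖ := by
  set p := y - ε • (T y - y) with hp
  have hlow : 1 ≤ ‖p‖ := by
    obtain ⟨φ, hφ, hφ1, hφ2⟩ := exists_common hy (hT1 y hy) (h2 y hy)
    have h1 : φ p = 1 := by
      rw [hp]; simp [hφ1, hφ2]
    have h3 := abs_apply_le hφ p
    rw [h1] at h3
    simpa using h3
  refine ⟨hlow, ?_⟩
  have hp0 : (0 : ℝ) < ‖p‖ := by linarith
  set q := (‖p‖⁻¹ : ℝ) • p with hq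
  have hq1 : ‖q‖ = 1 := by
    rw [hq, norm_smul, Real.norm_eq_abs, abs_of_pos (inv_pos.mpr hp0), inv_mul_cancel₀ hp0.ne']
  obtain ⟨ψ, hψ, hψ1, hψ2⟩ := exists_common hq1 (hT1 q hq1) (h2 q hq1)
  have hψp : ψ p = ‖p‖ := by
    have : p = ‖p‖ • q := by
      rw [hq, smul_smul, mul_inv_cancel₀ hp0.ne', one_smul]
    rw [this, map_smul, hψ1]
    simp [norm_smul, hq1]
  have hψy : ψ y ≤ 1 := by
    have := (abs_le.mp (abs_apply_le hψ y)).2
    rwa [hy] at this
  have hψT : 1 - ‖y - q‖ ≤ ψ (T y) := by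
    have h3 := (abs_le.mp (abs_apply_le hψ (T y - T q))).1
    rw [hiso y q hy hq1, map_sub, hψ2] at h3
    linarith
  have hpq : ‖p - q‖ = ‖p‖ - 1 := by
    have : p - q = (1 - ‖p‖⁻¹) • p := by
      rw [hq, sub_smul, one_smul]
    rw [this, norm_smul, Real.norm_eq_abs, abs_of_nonneg]
    · field_simp
    · have : ‖p‖⁻¹ ≤ 1 := inv_le_one_of_one_le₀ hlow
      linarith
  have hyq : ‖y - q‖ ≤ ε * ‖T y - y‖ + (‖p‖ - 1) := by
    have e : y - q = (y - p) + (p - q) := by abel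
    rw [e]
    have h3 := norm_add_le (y - p) (p - q)
    have h4 : ‖y - p‖ = ε * ‖T y - y‖ := by
      rw [hp, sub_sub_cancel, norm_smul, Real.norm_eq_abs, abs_of_pos hε]
    rw [h4, hpq] at h3
    exact h3
  have hmain : ‖p‖ ≤ 1 + ε * ‖y - q‖ := by
    have e : ψ p = (1 + ε) * ψ y - ε * ψ (T y) := by
      rw [hp]; simp only [map_sub, map_smul, smul_eq_mul]; ring
    rw [hψp] at e
    rw [e]
    nlinarith
  have hD := norm_nonneg (T y - y)
  have hfinal : (‖p‖ - 1) * (1 - ε) ≤ ε ^ 2 * ‖T y - y‖ := by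
    nlinarith
  nlinarith [hlow]

/-- One step of the flow. -/
noncomputable def nxt (T : X → X) (ε : ℝ) (y : X) : X :=
  (‖y - ε • (T y - y)‖⁻¹ : ℝ) • (y - ε • (T y - y))

theorem nxt_facts (hT1 : ∀ x : X, ‖x‖ = 1 → ‖T x‖ = 1)
    (hiso : ∀ x y : X, ‖x‖ = 1 → ‖y‖ = 1 → ‖T x - T y‖ = ‖x - y‖)
    (h2 : ∀ x : X, ‖x‖ = 1 → ‖x + T x‖ = 2) {y : X} (hy : ‖y‖ = 1) {ε : ℝ} (hε : 0 < ε)
    (hε2 : ε ≤ 1 / 2) :
    ‖nxt T ε y‖ = 1 ∧ ‖nxt T ε y - (y - ε • (T y - y))‖ ≤ 2 * ε ^ 2 * ‖T y - y‖ := by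
  obtain ⟨h1, h3⟩ := step_norm hT1 hiso h2 hy hε hε2
  set p := y - ε • (T y - y) with hp
  have hp0 : (0 : ℝ) < ‖p‖ := by linarith
  constructor
  · unfold nxt
    rw [← hp, norm_smul, Real.norm_eq_abs, abs_of_pos (inv_pos.mpr hp0), inv_mul_cancel₀ hp0.ne']
  · unfold nxt
    rw [← hp]
    have : (‖p‖⁻¹ : ℝ) • p - p = (‖p‖⁻¹ - 1) • p := by
      rw [sub_smul, one_smul]
    rw [this, norm_smul, Real.norm_eq_abs, abs_of_nonpos]
    · have : (-(‖p‖⁻¹ - 1)) * ‖p‖ = ‖p‖ - 1 := by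
        field_simp
        ring
      rw [this]
      exact h3
    · have : ‖p‖⁻¹ ≤ 1 := inv_le_one_of_one_le₀ h1
      linarith

/-- Monotonicity along one step: bookkeeping for the fixed functional `χ`. -/
theorem nxt_bookkeeping (hT1 : ∀ x : X, ‖x‖ = 1 → ‖T x‖ = 1)
    (hiso : ∀ x y : X, ‖x‖ = 1 → ‖y‖ = 1 → ‖T x - T y‖ = ‖x - y‖)
    (h2 : ∀ x : X, ‖x‖ = 1 → ‖x + T x‖ = 2) {y : X} (hy : ‖y‖ = 1) {ε δ : ℝ} (hε : 0 < ε)
    (hε2 : ε ≤ 1 / 2) (hδ : ∀ x : X, ‖x‖ = 1 → ‖T x - x‖ ≤ δ) (hδ2 : δ ≤ 2)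
    {χ : X →L[ℝ] ℝ} (hχ : ‖χ‖ ≤ 1) :
    χ (nxt T ε y) ≤ χ y - ε * χ (T y - y) + 4 * ε ^ 2 ∧
      (δ - χ (T (nxt T ε y) - nxt T ε y)) + 8 * ε ≤ (1 + ε) * ((δ - χ (T y - y)) + 8 * ε) := by
  obtain ⟨h1, h3⟩ := nxt_facts hT1 hiso h2 hy hε hε2
  set y' := nxt T ε y with hy'
  have hD := hδ y hy
  have hr : ‖y' - (y - ε • (T y - y))‖ ≤ 4 * ε ^ 2 := by
    have : 2 * ε ^ 2 * ‖T y - y‖ ≤ 2 * ε ^ 2 * 2 := by
      apply mul_le_mul_of_nonneg_left (hD.trans hδ2) (by positivity)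
    linarith
  have hchi : χ y' ≤ χ y - ε * χ (T y - y) + 4 * ε ^ 2 := by
    have e1 := (abs_le.mp ((abs_apply_le hχ (y' - (y - ε • (T y - y)))).trans hr)).2
    simp only [map_sub, map_smul, smul_eq_mul] at e1 ⊢
    linarith
  have hchi' : χ y - ε * χ (T y - y) - 4 * ε ^ 2 ≤ χ y' := by
    have e1 := (abs_le.mp ((abs_apply_le hχ (y' - (y - ε • (T y - y)))).trans hr)).1
    simp only [map_sub, map_smul, smul_eq_mul] at e1 ⊢
    linarith
  refine ⟨hchi, ?_⟩
  have hdist : ‖T y' - T y‖ ≤ ε * δ + 4 * ε ^ 2 := by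
    rw [hiso y' y h1 hy]
    have e : y' - y = (y' - (y - ε • (T y - y))) - ε • (T y - y) := by abel
    rw [e]
    have h4 := norm_sub_le (y' - (y - ε • (T y - y))) (ε • (T y - y))
    rw [norm_smul, Real.norm_eq_abs, abs_of_pos hε] at h4
    have h5 : ε * ‖T y - y‖ ≤ ε * δ := mul_le_mul_of_nonneg_left hD hε.le
    linarith
  have hTchi : χ (T y) - (ε * δ + 4 * ε ^ 2) ≤ χ (T y') := by
    have e1 := (abs_le.mp ((abs_apply_le hχ (T y' - T y)).trans hdist)).1
    rw [map_sub] at e1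
    linarith
  have hkey : χ (T y - y) + ε * χ (T y - y) - ε * δ - 8 * ε ^ 2 ≤ χ (T y' - y') := by
    rw [map_sub χ (T y') y']
    have e2 : χ (T y - y) = χ (T y) - χ y := map_sub _ _ _
    have e3 : χ y' ≤ χ y - ε * χ (T y - y) + 4 * ε ^ 2 := hchi
    linarith
  nlinarith

end Flow

/-- Flow lemma: an isometry of the unit sphere with `‖x + T x‖ = 2` everywhere is the identity. -/
theorem eq_self_of_cofacial {T : X → X} (hT1 : ∀ x : X, ‖x‖ = 1 → ‖T x‖ = 1)
    (hiso : ∀ x y : X, ‖x‖ = 1 → ‖y‖ = 1 → ‖T x - T y‖ = ‖x - y‖)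
    (h2 : ∀ x : X, ‖x‖ = 1 → ‖x + T x‖ = 2) {x : X} (hx : ‖x‖ = 1) : T x = x := by
  by_contra hne
  -- the supremum of the displacement
  let A : Set ℝ := {r | ∃ z : X, ‖z‖ = 1 ∧ r = ‖T z - z‖}
  have hAbd : BddAbove A := by
    refine ⟨2, ?_⟩
    rintro r ⟨z, hz, rfl⟩
    have := norm_sub_le (T z) z
    rw [hT1 z hz, hz] at this
    linarith
  have hAne : A.Nonempty := ⟨_, x, hx, rfl⟩
  set δ := sSup A with hδdef
  have hδle : ∀ z : X, ‖z‖ = 1 → ‖T z - z‖ ≤ δ := fun z hz => le_csSup hAbd ⟨z, hz, rfl⟩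
  have hδ2 : δ ≤ 2 := by
    apply csSup_le hAne
    rintro r ⟨z, hz, rfl⟩
    have := norm_sub_le (T z) z
    rw [hT1 z hz, hz] at this
    linarith
  have hδ0 : 0 < δ := by
    have h1 : 0 < ‖T x - x‖ := norm_pos_iff.mpr (sub_ne_zero.mpr hne)
    linarith [hδle x hx]
  set R : ℝ := 6 / δ with hR
  have hR0 : 0 < R := by positivity
  have hexp : 1 ≤ Real.exp (R + 1) := Real.one_le_exp (by linarith)
  set C : ℝ := 9 * Real.exp (R + 1) + 4 with hC
  have hC0 : 13 ≤ C := by rw [hC]; linarith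
  set ε : ℝ := δ / (2 * C) with hεdef
  have hε : 0 < ε := by positivity
  have hεC : ε * C = δ / 2 := by rw [hεdef]; field_simp
  have hε2 : ε ≤ 1 / 2 := by
    have h3 : ε * 13 ≤ ε * C := mul_le_mul_of_nonneg_left hC0 hε.le
    rw [hεC] at h3
    linarith
  have hεδ : ε < δ := by
    have h3 : ε * 13 ≤ ε * C := mul_le_mul_of_nonneg_left hC0 hε.le
    rw [hεC] at h3
    linarith
  -- a near maximiser
  obtain ⟨r, ⟨x1, hx1, rfl⟩, hr⟩ := exists_lt_of_lt_csSup hAne (show δ - ε < sSup A by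
    rw [← hδdef]; linarith)
  have hD1 : T x1 - x1 ≠ 0 := by
    intro h0
    rw [h0, norm_zero] at hr
    linarith
  obtain ⟨χ, hχ1, hχ2⟩ := exists_dual_vector ℝ (T x1 - x1) (norm_ne_zero_iff.mpr hD1)
  have hχ : ‖χ‖ ≤ 1 := hχ1.le
  have hχ3 : χ (T x1 - x1) = ‖T x1 - x1‖ := by
    simpa using hχ2
  -- the orbit of the flow
  let y : ℕ → X := fun k => (nxt T ε)^[k] x1
  have hy0 : y 0 = x1 := rfl
  have hyS : ∀ k, y (k + 1) = nxt T ε (y k) := fun k => by
    simp only [y, Function.iterate_succ_apply']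
  have hy1 : ∀ k, ‖y k‖ = 1 := by
    intro k
    induction k with
    | zero => exact hx1
    | succ k ih =>
      rw [hyS]
      exact (nxt_facts hT1 hiso h2 ih hε hε2).1
  -- the deficit
  let h : ℕ → ℝ := fun k => δ - χ (T (y k) - y k)
  have hh0 : h 0 < ε := by
    have : h 0 = δ - ‖T x1 - x1‖ := by
      simp only [h, hy0, hχ3]
    rw [this]
    linarith
  have hstep : ∀ k, h (k + 1) + 8 * ε ≤ (1 + ε) * (h k + 8 * ε) := by
    intro k
    have := (nxt_bookkeeping hT1 hiso h2 (hy1 k) hε hε2 hδle hδ2 hχ).2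
    simpa [h, hyS] using this
  have hgrow : ∀ k, h k + 8 * ε ≤ (1 + ε) ^ k * (9 * ε) := by
    intro k
    induction k with
    | zero =>
      simp only [pow_zero, one_mul]
      linarith
    | succ k ih =>
      have h3 := hstep k
      have h4 : (1 + ε) * (h k + 8 * ε) ≤ (1 + ε) * ((1 + ε) ^ k * (9 * ε)) :=
        mul_le_mul_of_nonneg_left ih (by linarith)
      calc h (k + 1) + 8 * ε ≤ (1 + ε) * (h k + 8 * ε) := h3
        _ ≤ (1 + ε) * ((1 + ε) ^ k * (9 * ε)) := h4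
        _ = (1 + ε) ^ (k + 1) * (9 * ε) := by ring
  -- the number of steps
  obtain ⟨N, hN1, hN2⟩ : ∃ N : ℕ, R ≤ N * ε ∧ N * ε ≤ R + 1 := by
    refine ⟨⌈R / ε⌉₊, ?_, ?_⟩
    · have := Nat.le_ceil (R / ε)
      rwa [div_le_iff₀ hε] at this
    · have h3 := (Nat.ceil_lt_add_one (show 0 ≤ R / ε by positivity)).le
      have h4 : (⌈R / ε⌉₊ : ℝ) * ε ≤ (R / ε + 1) * ε := mul_le_mul_of_nonneg_right h3 hε.le
      have h5 : (R / ε + 1) * ε = R + ε := by field_simp
      rw [h5] at h4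
      linarith
  have hbound : ∀ k, k ≤ N → h k ≤ δ / 2 - 4 * ε := by
    intro k hk
    have h3 := hgrow k
    have h4 : (1 + ε) ^ k ≤ Real.exp (R + 1) := by
      have h5 : 1 + ε ≤ Real.exp ε := by linarith [Real.add_one_le_exp ε]
      have h6 : (1 + ε) ^ k ≤ Real.exp ε ^ k := pow_le_pow_left₀ (by linarith) h5 k
      have h7 : Real.exp ε ^ k = Real.exp (k * ε) := by
        rw [← Real.exp_nat_mul]
      rw [h7] at h6
      refine h6.trans (Real.exp_le_exp.mpr ?_)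
      have h8 : (k : ℝ) ≤ N := by exact_mod_cast hk
      have h9 : (k : ℝ) * ε ≤ N * ε := mul_le_mul_of_nonneg_right h8 hε.le
      linarith
    have h5 : (1 + ε) ^ k * (9 * ε) ≤ Real.exp (R + 1) * (9 * ε) :=
      mul_le_mul_of_nonneg_right h4 (by positivity)
    have h6 : ε * C = ε * (9 * Real.exp (R + 1)) + 4 * ε := by rw [hC]; ring
    nlinarith
  have hdesc : ∀ k, k ≤ N → χ (y k) ≤ χ x1 - k * (ε * (δ / 2)) := by
    intro k
    induction k with
    | zero =>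
      intro _
      simp [hy0]
    | succ k ih =>
      intro hk
      have h3 := ih (by omega)
      have h4 := (nxt_bookkeeping hT1 hiso h2 (hy1 k) hε hε2 hδle hδ2 hχ).1
      rw [← hyS] at h4
      have h5 := hbound k (by omega)
      have h6 : χ (T (y k) - y k) = δ - h k := by
        simp only [h]; ring
      rw [h6] at h4
      have h7 : ε * (δ - h k) ≥ ε * (δ / 2 + 4 * ε) := by
        apply mul_le_mul_of_nonneg_left _ hε.le
        linarith
      push_cast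
      nlinarith
  have hfin := hdesc N le_rfl
  have hχ1' : χ x1 ≤ 1 := by
    have := (abs_le.mp (abs_apply_le hχ x1)).2
    rwa [hx1] at this
  have hχN : -1 ≤ χ (y N) := by
    have := (abs_le.mp (abs_apply_le hχ (y N))).1
    rw [hy1 N] at this
    exact this
  have hprod : 3 ≤ (N : ℝ) * (ε * (δ / 2)) := by
    have h3 : R * (δ / 2) = 3 := by rw [hR]; field_simp; norm_num
    have h4 : R * (δ / 2) ≤ (N * ε) * (δ / 2) :=
      mul_le_mul_of_nonneg_right hN1 (by positivity)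
    calc (3 : ℝ) = R * (δ / 2) := h3.symm
      _ ≤ (N * ε) * (δ / 2) := h4
      _ = (N : ℝ) * (ε * (δ / 2)) := by ring
  linarith

/-- Surjective isometries of the unit spheres of arbitrary real normed spaces are odd. -/
theorem sphere_iso_odd (f : sphere (0 : X) 1 → sphere (0 : Y) 1) (hf : Isometry f)
    (hs : Function.Surjective f) (x : sphere (0 : X) 1) : ((f (-x) : sphere (0 : Y) 1) : Y) = -(f x : Y) := by
  classical
  let g : sphere (0 : Y) 1 → sphere (0 : X) 1 := Function.surjInv hs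
  have hfg : ∀ u, f (g u) = u := Function.surjInv_eq hs
  let T0 : sphere (0 : X) 1 → sphere (0 : X) 1 := fun z => g (-(f (-z)))
  have hfT : ∀ z, f (T0 z) = -(f (-z)) := fun z => hfg _
  have hcoe : ∀ z : sphere (0 : X) 1, ‖(z : X)‖ = 1 := fun z => by simp
  have hcoeY : ∀ z : sphere (0 : Y) 1, ‖(z : Y)‖ = 1 := fun z => by simp
  have hdist : ∀ a b : sphere (0 : X) 1, ‖((f a : sphere (0 : Y) 1) : Y) - (f b : Y)‖ = ‖(a : X) - b‖ := by
    intro a b
    have := hf.dist_eq a b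
    rw [Subtype.dist_eq, Subtype.dist_eq, dist_eq_norm, dist_eq_norm] at this
    exact this
  -- extension of `T0` to a map on `X`
  let T : X → X := fun z => if h : ‖z‖ = 1 then (T0 ⟨z, by simpa using h⟩ : X) else 0
  have hTval : ∀ z : sphere (0 : X) 1, T z = T0 z := by
    intro z
    have h1 := hcoe z
    simp only [T, dif_pos h1]
  have hT1 : ∀ z : X, ‖z‖ = 1 → ‖T z‖ = 1 := by
    intro z hz
    have := hTval ⟨z, by simpa using hz⟩
    simp only at this
    rw [this]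
    exact hcoe _
  have hiso : ∀ a b : X, ‖a‖ = 1 → ‖b‖ = 1 → ‖T a - T b‖ = ‖a - b‖ := by
    intro a b ha hb
    have h1 := hTval ⟨a, by simpa using ha⟩
    have h2 := hTval ⟨b, by simpa using hb⟩
    simp only at h1 h2
    rw [h1, h2, ← hdist, hfT, hfT]
    have h3 := hdist (-⟨a, by simpa using ha⟩) (-⟨b, by simpa using hb⟩)
    have h4 : ‖(-(f (-⟨a, by simpa using ha⟩ : sphere (0 : X) 1)) : sphere (0 : Y) 1).1 -
        (-(f (-⟨b, by simpa using hb⟩ : sphere (0 : X) 1)) : sphere (0 : Y) 1).1‖ =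
        ‖(f (-⟨a, by simpa using ha⟩ : sphere (0 : X) 1) : Y) -
          (f (-⟨b, by simpa using hb⟩ : sphere (0 : X) 1) : Y)‖ := by
      simp only [coe_neg_sphere]
      rw [← norm_neg]
      congr 1
      abel
    rw [h4, h3]
    simp only [coe_neg_sphere]
    rw [← norm_neg]
    congr 1
    abel
  have h2 : ∀ a : X, ‖a‖ = 1 → ‖a + T a‖ = 2 := by
    intro a ha
    have h1 := hTval ⟨a, by simpa using ha⟩
    simp only at h1
    rw [h1]
    have h3 := hdist (T0 ⟨a, by simpa using ha⟩) (-⟨a, by simpa using ha⟩)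
    rw [hfT] at h3
    have h4 : ((T0 ⟨a, by simpa using ha⟩ : sphere (0 : X) 1) : X) -
        ((-⟨a, by simpa using ha⟩ : sphere (0 : X) 1) : X) = a + (T0 ⟨a, by simpa using ha⟩ : X) := by
      simp only [coe_neg_sphere]
      abel
    rw [h4] at h3
    rw [← h3]
    simp only [coe_neg_sphere]
    have h5 : -((f (-⟨a, by simpa using ha⟩ : sphere (0 : X) 1)) : Y) -
        ((f (-⟨a, by simpa using ha⟩ : sphere (0 : X) 1)) : Y) =
        (-2 : ℝ) • ((f (-⟨a, by simpa using ha⟩ : sphere (0 : X) 1)) : Y) := by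
      module
    rw [h5, norm_smul, hcoeY]
    norm_num
  have hfix : T x = x := eq_self_of_cofacial hT1 hiso h2 (hcoe x)
  have h3 := hTval x
  rw [hfix] at h3
  have h4 : T0 x = x := Subtype.ext h3.symm
  have h5 := hfT x
  rw [h4] at h5
  rw [h5]
  simp

end Vale.Agent.Lib.P084.Inf
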