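/-
The constancy theorem on `Ew w` without any hypothesis on the fibres (helper74).

`X` finite dimensional of dimension at least four, `0 < ‖w‖ < 1`.  A continuous function on
`Ew w = {x : ‖x‖ = 1, ‖x - w‖ = 1}` which is even for `x ↦ w - x` and takes the same value at any
two points at distance one, is constant.

The fibres of the projection along `w` are segments, on which nothing is assumed.  We work in the
open thickening `UD w δ` and with a continuous odd section over the sphere of the quotient, the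
root of a strictly increasing perturbation of `‖x‖ - ‖x - w‖`.  Borsuk-Ulam gives a connected
subset of a sublevel set with a pair `x₀, w - x₀`.  Crossing the value `1` on it shows that the
sublevel set grows, a bounded number of times, until it contains the whole component.
-/
import Vale.Agent.Lib.P084.NS.KConst

set_option linter.unusedSectionVars false

namespace Vale.Agent.Lib.P084.Inf

open Metric Set Filter Topology
open Vale.Agent.Lib.P084.Dim4
open Vale.Agent.Lib.P084.NS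

section Thick

variable {X : Type*} [NormedAddCommGroup X] [NormedSpace ℝ X]

/-- The open thickening of `Ew w`. -/
def UD (w : X) (δ : ℝ) : Set X := {x | |‖x‖ - 1| < δ ∧ |‖x - w‖ - 1| < δ}

lemma isOpen_UD (w : X) (δ : ℝ) : IsOpen (UD w δ) := by
  have h : UD w δ = {x : X | |‖x‖ - 1| < δ} ∩ {x : X | |‖x - w‖ - 1| < δ} := rfl
  rw [h]
  have c1 : Continuous fun x : X => |‖x‖ - 1| := by fun_prop
  have c2 : Continuous fun x : X => |‖x - w‖ - 1| := by fun_prop
  exact (isOpen_lt c1 continuous_const).inter (isOpen_lt c2 continuous_const)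

lemma UD_rho {w x : X} {δ : ℝ} (hx : x ∈ UD w δ) : w - x ∈ UD w δ := by
  refine ⟨?_, ?_⟩
  · rw [norm_sub_rev]; exact hx.2
  · have : w - x - w = -x := by abel
    rw [this, norm_neg]; exact hx.1

lemma UD_norm_lt {w x : X} {δ : ℝ} (hδ : δ ≤ 1) (hx : x ∈ UD w δ) : ‖x‖ < 2 := by
  have := (abs_lt.1 hx.1).2
  linarith

lemma Ew_subset_UD {w : X} {δ : ℝ} (hδ : 0 < δ) : Ew w ⊆ UD w δ := by
  intro x hx
  refine ⟨?_, ?_⟩
  · rw [hx.1]; simpa using hδ
  · rw [hx.2]; simpa using hδ

/-- The crossing step. -/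
lemma growth_step {w : X} {δ r ε c : ℝ} {F : X → ℝ} {W : Set X}
    (hr : r + 2 * δ ≤ 1 - ‖w‖)
    (hAUC : ∀ x x', x ∈ UD w δ → x' ∈ UD w δ → ‖x - x'‖ = 1 → |F x - F x'| < ε)
    (hW : IsPreconnected W) (hWU : W ⊆ UD w δ) (hWc : ∀ z ∈ W, F z < c)
    (hsym : ∀ z ∈ W, w - z ∈ W) {p z : X} (hp : p ∈ UD w δ) (hz : z ∈ W) (hδ : 0 < δ)
    (hpz : ‖p - z‖ < r) : F p < c + ε := by
  have hz1 := (abs_lt.1 (hWU hz).1).1
  have hw0 : 0 ≤ ‖w‖ := norm_nonneg _
  have hfar : 1 ≤ ‖p - (w - z)‖ := by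
    have h1 : ‖z - (w - z)‖ ≤ ‖p - (w - z)‖ + ‖p - z‖ := by
      have e : z - (w - z) = (p - (w - z)) - (p - z) := by abel
      rw [e]; exact norm_sub_le _ _
    have h2 : 2 * ‖z‖ - ‖w‖ ≤ ‖z - (w - z)‖ := by
      have e : z - (w - z) = (2 : ℝ) • z - w := by rw [two_smul]; abel
      rw [e]
      have := norm_sub_norm_le ((2 : ℝ) • z) w
      rw [norm_smul] at this
      simpa using this
    linarith
  have hnear : ‖p - z‖ ≤ 1 := by linarith
  have hcont : ContinuousOn (fun a => ‖p - a‖) W := by fun_prop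
  obtain ⟨a, ha, hpa⟩ := hW.intermediate_value hz (hsym z hz) hcont
    (show (1 : ℝ) ∈ Icc _ _ from ⟨hnear, hfar⟩)
  have h3 := hAUC p a hp (hWU ha) hpa
  have h4 := (abs_lt.1 h3).2
  have h5 := hWc a ha
  linarith

/-- A point of an open set in the closure of one of its components belongs to the component. -/
lemma comp_closed_in {D : Set X} (hD : IsOpen D) {x₀ p : X} (hp : p ∈ D)
    (hcl : p ∈ closure (connectedComponentIn D x₀)) : p ∈ connectedComponentIn D x₀ := by
  have hO : IsOpen (connectedComponentIn D p) := hD.connectedComponentIn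
  obtain ⟨q, hq1, hq2⟩ := mem_closure_iff.1 hcl _ hO (mem_connectedComponentIn hp)
  have e1 : connectedComponentIn D p = connectedComponentIn D q := connectedComponentIn_eq hq1
  have e2 : connectedComponentIn D x₀ = connectedComponentIn D q := connectedComponentIn_eq hq2
  rw [e2, ← e1]
  exact mem_connectedComponentIn hp

/-- The sublevel sets in the thickening. -/
def Dlev (w : X) (δ : ℝ) (F : X → ℝ) (c : ℝ) : Set X := UD w δ ∩ {x | F x < c}

lemma isOpen_Dlev (w : X) (δ : ℝ) {F : X → ℝ} (hF : Continuous F) (c : ℝ) :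
    IsOpen (Dlev w δ F c) :=
  (isOpen_UD w δ).inter (isOpen_lt hF continuous_const)

lemma comp_rho {w : X} {δ c : ℝ} {F : X → ℝ} (heven : ∀ x, F (w - x) = F x) {x₀ : X}
    (h : w - x₀ ∈ connectedComponentIn (Dlev w δ F c) x₀) {z : X}
    (hz : z ∈ connectedComponentIn (Dlev w δ F c) x₀) :
    w - z ∈ connectedComponentIn (Dlev w δ F c) x₀ := by
  set D := Dlev w δ F c with hD
  have hconn : IsPreconnected ((fun a => w - a) '' connectedComponentIn D x₀) :=
    isPreconnected_connectedComponentIn.image _ (by fun_prop)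
  have hsub : (fun a => w - a) '' connectedComponentIn D x₀ ⊆ D := by
    rintro _ ⟨a, ha, rfl⟩
    have ha' := connectedComponentIn_subset D x₀ ha
    refine ⟨UD_rho ha'.1, ?_⟩
    show F (w - a) < c
    rw [heven]
    exact ha'.2
  have hx₀ : x₀ ∈ connectedComponentIn D x₀ := by
    have hne : (connectedComponentIn D x₀).Nonempty := ⟨w - x₀, h⟩
    have hx₀D : x₀ ∈ D := by
      by_contra hcon
      rw [connectedComponentIn_eq_empty hcon] at hne
      exact not_nonempty_empty hne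
    exact mem_connectedComponentIn hx₀D
  have e : connectedComponentIn D x₀ = connectedComponentIn D (w - x₀) := connectedComponentIn_eq h
  rw [e]
  exact hconn.subset_connectedComponentIn (mem_image_of_mem _ hx₀) hsub (mem_image_of_mem _ hz)

/-- Either the component of the sublevel set swallows the component of the thickening, or it has a
point far from the previous one. -/
lemma step_dichotomy {w : X} {δ r ε c : ℝ} {F : X → ℝ} (hF : Continuous F)
    (heven : ∀ x, F (w - x) = F x) (hr : r + 2 * δ ≤ 1 - ‖w‖) (hδ : 0 < δ) (hr0 : 0 < r)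
    (hAUC : ∀ x x', x ∈ UD w δ → x' ∈ UD w δ → ‖x - x'‖ = 1 → |F x - F x'| < ε)
    (hε : 0 < ε) {x₀ : X} (hx₀ : x₀ ∈ Dlev w δ F c)
    (hsym : w - x₀ ∈ connectedComponentIn (Dlev w δ F c) x₀) :
    connectedComponentIn (UD w δ) x₀ ⊆ connectedComponentIn (Dlev w δ F (c + ε)) x₀ ∨
      ∃ y ∈ connectedComponentIn (Dlev w δ F (c + ε)) x₀,
        ∀ z ∈ connectedComponentIn (Dlev w δ F c) x₀, r / 2 ≤ ‖y - z‖ := by
  set W := connectedComponentIn (Dlev w δ F c) x₀ with hW
  set W' := connectedComponentIn (Dlev w δ F (c + ε)) x₀ with hW'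
  have hOD' : IsOpen (Dlev w δ F (c + ε)) := isOpen_Dlev w δ hF _
  have hWU : W ⊆ UD w δ := fun a ha => (connectedComponentIn_subset _ _ ha).1
  have hWc : ∀ z ∈ W, F z < c := fun a ha => (connectedComponentIn_subset _ _ ha).2
  have hWsym : ∀ z ∈ W, w - z ∈ W := fun z hz => comp_rho heven hsym hz
  have hWconn : IsPreconnected W := isPreconnected_connectedComponentIn
  by_cases hex : ∃ y ∈ W', ∀ z ∈ W, r / 2 ≤ ‖y - z‖
  · exact Or.inr hex
  · left
    push Not at hex
    have hx₀'D : x₀ ∈ Dlev w δ F (c + ε) := ⟨hx₀.1, by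
      have : F x₀ < c := hx₀.2
      show F x₀ < c + ε
      linarith⟩
    have hx₀' : x₀ ∈ W' := mem_connectedComponentIn hx₀'D
    refine IsPreconnected.subset_of_closure_inter_subset isPreconnected_connectedComponentIn
      hOD'.connectedComponentIn ⟨x₀, mem_connectedComponentIn hx₀.1, hx₀'⟩ ?_
    rintro p ⟨hpcl, hpΩ⟩
    have hpU : p ∈ UD w δ := connectedComponentIn_subset _ _ hpΩ
    obtain ⟨q, hq, hpq⟩ := Metric.mem_closure_iff.1 hpcl (r / 2) (by linarith)
    obtain ⟨z, hz, hqz⟩ := hex q hq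
    have hpz : ‖p - z‖ < r := by
      have h1 : ‖p - z‖ ≤ ‖p - q‖ + ‖q - z‖ := by
        have e : p - z = (p - q) + (q - z) := by abel
        rw [e]; exact norm_add_le _ _
      rw [dist_eq_norm] at hpq
      linarith
    have hFp := growth_step hr hAUC hWconn hWU hWc hWsym hpU hz hδ hpz
    exact comp_closed_in hOD' ⟨hpU, hFp⟩ hpcl

/-- The packing number. -/
lemma exists_packing [FiniteDimensional ℝ X] {η : ℝ} (hη : 0 < η) :
    ∃ M : ℕ, ∀ Y : Finset X, (∀ y ∈ Y, ‖y‖ ≤ 2) → (∀ y ∈ Y, ∀ y' ∈ Y, y ≠ y' → η ≤ ‖y - y'‖) →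
      Y.card ≤ M := by
  classical
  have : ProperSpace X := FiniteDimensional.proper_real X
  obtain ⟨t, -, htf, hcov⟩ := (isCompact_closedBall (0 : X) 2).finite_cover_balls (half_pos hη)
  refine ⟨htf.toFinset.card, fun Y hY hsep => ?_⟩
  have hpick : ∀ y ∈ Y, ∃ c ∈ t, y ∈ ball c (η / 2) := by
    intro y hy
    have : y ∈ closedBall (0 : X) 2 := by simpa using hY y hy
    have := hcov this
    simpa only [mem_iUnion, exists_prop] using this
  choose! g hg1 hg2 using hpick
  refine Finset.card_le_card_of_injOn g (fun y hy => by simpa using hg1 y hy) ?_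
  intro y hy y' hy' hgg
  by_contra hne
  have h1 := hsep y hy y' hy' hne
  have h2 : dist y (g y) < η / 2 := hg2 y hy
  have h3 : dist y' (g y') < η / 2 := hg2 y' hy'
  have hgg' : g y = g y' := hgg
  rw [hgg'] at h2
  have h4 : dist y y' ≤ dist y (g y') + dist y' (g y') := dist_triangle_right _ _ _
  rw [dist_eq_norm] at h4
  linarith

/-- The growth theorem. -/
theorem growth_main {w : X} {δ r ε c : ℝ} {F : X → ℝ} (hF : Continuous F)
    (heven : ∀ x, F (w - x) = F x) (hr : r + 2 * δ ≤ 1 - ‖w‖) (hδ : 0 < δ) (hδ1 : δ ≤ 1)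
    (hr0 : 0 < r)
    (hAUC : ∀ x x', x ∈ UD w δ → x' ∈ UD w δ → ‖x - x'‖ = 1 → |F x - F x'| < ε)
    (hε : 0 < ε) {M : ℕ}
    (hM : ∀ Y : Finset X, (∀ y ∈ Y, ‖y‖ ≤ 2) → (∀ y ∈ Y, ∀ y' ∈ Y, y ≠ y' → r / 2 ≤ ‖y - y'‖) →
      Y.card ≤ M)
    {x₀ : X} (hx₀ : x₀ ∈ Dlev w δ F c)
    (hsym : w - x₀ ∈ connectedComponentIn (Dlev w δ F c) x₀) :
    ∀ x ∈ connectedComponentIn (UD w δ) x₀, F x < c + ((M : ℝ) + 1) * ε := by
  classical
  set lev : ℕ → ℝ := fun i => c + (i : ℝ) * ε with hlev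
  have hlev0 : lev 0 = c := by simp [hlev]
  have hlevS : ∀ i, lev i + ε = lev (i + 1) := by
    intro i
    simp only [hlev]
    push_cast
    ring
  have hlevge : ∀ i, c ≤ lev i := by
    intro i
    simp only [hlev]
    have : 0 ≤ (i : ℝ) * ε := by positivity
    linarith
  have hsubD : ∀ i, Dlev w δ F c ⊆ Dlev w δ F (lev i) := by
    intro i a ha
    exact ⟨ha.1, lt_of_lt_of_le ha.2 (hlevge i)⟩
  have hxi : ∀ i, x₀ ∈ Dlev w δ F (lev i) := fun i => hsubD i hx₀
  have hsymi : ∀ i, w - x₀ ∈ connectedComponentIn (Dlev w δ F (lev i)) x₀ := fun i =>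
    connectedComponentIn_mono x₀ (hsubD i) hsym
  have hP : ∀ n : ℕ, connectedComponentIn (UD w δ) x₀ ⊆ connectedComponentIn (Dlev w δ F (lev n)) x₀ ∨
      ∃ Y : Finset X, Y.card = n ∧ (∀ y ∈ Y, y ∈ connectedComponentIn (Dlev w δ F (lev n)) x₀) ∧
        (∀ y ∈ Y, ∀ y' ∈ Y, y ≠ y' → r / 2 ≤ ‖y - y'‖) := by
    intro n
    induction n with
    | zero => exact Or.inr ⟨∅, rfl, by simp, by simp⟩
    | succ n ih =>
      have hmono : connectedComponentIn (Dlev w δ F (lev n)) x₀ ⊆
          connectedComponentIn (Dlev w δ F (lev (n + 1))) x₀ := by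
        apply connectedComponentIn_mono
        intro a ha
        refine ⟨ha.1, ?_⟩
        have h5 : F a < lev n := ha.2
        have h6 := hlevS n
        show F a < lev (n + 1)
        linarith
      rcases ih with ih | ⟨Y, hYc, hYW, hYs⟩
      · exact Or.inl (ih.trans hmono)
      · have hd := step_dichotomy hF heven hr hδ hr0 hAUC hε (hxi n) (hsymi n)
        rw [hlevS] at hd
        rcases hd with hd | ⟨y, hyW, hyfar⟩
        · exact Or.inl hd
        · right
          have hyY : y ∉ Y := by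
            intro hyY
            have := hyfar y (hYW y hyY)
            rw [sub_self, norm_zero] at this
            linarith
          refine ⟨insert y Y, by rw [Finset.card_insert_of_notMem hyY, hYc], ?_, ?_⟩
          · intro a ha
            rcases Finset.mem_insert.1 ha with h1 | h1
            · rw [h1]; exact hyW
            · exact hmono (hYW a h1)
          · intro a ha b hb hab
            rcases Finset.mem_insert.1 ha with h1 | h1 <;>
              rcases Finset.mem_insert.1 hb with h2 | h2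
            · exact absurd (h1.trans h2.symm) hab
            · rw [h1]; exact hyfar b (hYW b h2)
            · rw [h2, norm_sub_rev]
              exact hyfar a (hYW a h1)
            · exact hYs a h1 b h2 hab
  intro x hx
  rcases hP (M + 1) with h | ⟨Y, hYc, hYW, hYs⟩
  · have h1 := (connectedComponentIn_subset _ _ (h hx)).2
    have h2 : lev (M + 1) = c + ((M : ℝ) + 1) * ε := by
      simp only [hlev]
      push_cast
      ring
    have h3 : F x < lev (M + 1) := h1
    rwa [h2] at h3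
  · exfalso
    have hb := hM Y (fun y hy => (UD_norm_lt hδ1
      (connectedComponentIn_subset _ _ (hYW y hy)).1).le) hYs
    omega

end Thick

section Section

variable {X : Type*} [NormedAddCommGroup X] [NormedSpace ℝ X]

/-- The monotone perturbation. -/
noncomputable def Gh (w : X) (ξ : X →L[ℝ] ℝ) (μ : ℝ) (x : X) : ℝ :=
  ‖x‖ - ‖x - w‖ + μ * (ξ x - 1 / 2)

lemma norm_comb_le' (a b : X) {l : ℝ} (h0 : 0 ≤ l) (h1 : l ≤ 1) :
    ‖l • a + (1 - l) • b‖ ≤ l * ‖a‖ + (1 - l) * ‖b‖ := by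
  calc ‖l • a + (1 - l) • b‖ ≤ ‖l • a‖ + ‖(1 - l) • b‖ := norm_add_le _ _
    _ = l * ‖a‖ + (1 - l) * ‖b‖ := by
      rw [norm_smul, norm_smul, Real.norm_of_nonneg h0, Real.norm_of_nonneg (by linarith)]

lemma gap_mono (w x : X) {s s' : ℝ} (h : s ≤ s') :
    ‖x + s • w‖ - ‖x + s • w - w‖ ≤ ‖x + s' • w‖ - ‖x + s' • w - w‖ := by
  have hd : 0 < s' - s + 1 := by linarith
  obtain ⟨l, hl0, hl1, hl⟩ : ∃ l : ℝ, 0 ≤ l ∧ l ≤ 1 ∧ l * (s' - s + 1) = s' - s :=
    ⟨(s' - s) / (s' - s + 1), div_nonneg (by linarith) hd.le, (div_le_one hd).2 (by linarith),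
      div_mul_cancel₀ _ hd.ne'⟩
  set a := x + s • w - w with ha
  set b := x + s' • w with hb
  have e1 : x + s • w = l • a + (1 - l) • b := by
    have : l • a + (1 - l) • b = x + (l * (s - 1) + (1 - l) * s') • w := by
      rw [ha, hb]; module
    rw [this]
    have hc : l * (s - 1) + (1 - l) * s' = s := by linear_combination (-1 : ℝ) * hl
    rw [hc]
  have e2 : x + s' • w - w = (1 - l) • a + (1 - (1 - l)) • b := by
    have : (1 - l) • a + (1 - (1 - l)) • b = x + ((1 - l) * (s - 1) + l * s') • w := by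
      rw [ha, hb]; module
    rw [this]
    have hc : (1 - l) * (s - 1) + l * s' = s' - 1 := by linear_combination hl
    rw [hc]
    module
  have h1 := norm_comb_le' a b hl0 hl1
  have h2 := norm_comb_le' a b (l := 1 - l) (by linarith) (by linarith)
  rw [← e1] at h1
  rw [← e2] at h2
  have h3 : ‖b - w‖ = ‖x + s' • w - w‖ := rfl
  rw [h3]
  nlinarith

lemma Gh_line (w : X) {ξ : X →L[ℝ] ℝ} (hξ : ξ w = 1) (μ : ℝ) (x : X) (s : ℝ) :
    Gh w ξ μ (x + s • w) = (‖x + s • w‖ - ‖x + s • w - w‖) + μ * (ξ x + s - 1 / 2) := by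
  simp only [Gh, map_add, map_smul, hξ, smul_eq_mul, mul_one]

lemma Gh_mono (w : X) {ξ : X →L[ℝ] ℝ} (hξ : ξ w = 1) {μ : ℝ} (x : X) {s s' : ℝ}
    (h : s ≤ s') : Gh w ξ μ (x + s • w) + μ * (s' - s) ≤ Gh w ξ μ (x + s' • w) := by
  rw [Gh_line w hξ, Gh_line w hξ]
  have := gap_mono w x h
  nlinarith

lemma Gh_rho (w : X) {ξ : X →L[ℝ] ℝ} (hξ : ξ w = 1) (μ : ℝ) (x : X) :
    Gh w ξ μ (w - x) = - Gh w ξ μ x := by
  simp only [Gh, map_sub, hξ]
  have e : w - x - w = -x := by abel
  rw [e, norm_neg, norm_sub_rev w x]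
  ring

lemma Gh_continuous (w : X) (ξ : X →L[ℝ] ℝ) (μ : ℝ) : Continuous (Gh w ξ μ) := by
  unfold Gh
  fun_prop

/-- A continuous odd section: the root of the perturbation on each line. -/
theorem exists_section {w : X} {ξ : X →L[ℝ] ℝ} (hξ : ξ w = 1) {μ : ℝ} (hμ : 0 < μ) :
    ∃ Φ₀ : X → X, Continuous Φ₀ ∧ (∀ e, Gh w ξ μ (Φ₀ e) = 0) ∧ (∀ e, ∃ s : ℝ, Φ₀ e = e + s • w) ∧
      (∀ e, Φ₀ (-e) = w - Φ₀ e) := by
  have hroot : ∀ e : X, ∃ s : ℝ, Gh w ξ μ (e + s • w) = 0 := by
    intro e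
    set G : ℝ → ℝ := fun s => Gh w ξ μ (e + s • w) with hG
    have hGc : Continuous G := by
      simp only [hG]
      exact (Gh_continuous w ξ μ).comp (by fun_prop)
    have hb : ∀ s : ℝ, |‖e + s • w‖ - ‖e + s • w - w‖| ≤ ‖w‖ := by
      intro s
      have := abs_norm_sub_norm_le (e + s • w) (e + s • w - w)
      have e1 : e + s • w - (e + s • w - w) = w := by abel
      rwa [e1] at this
    set sp : ℝ := ‖w‖ / μ - ξ e + 1 / 2 with hsp
    set sm : ℝ := -‖w‖ / μ - ξ e + 1 / 2 with hsm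
    have hle : sm ≤ sp := by
      have : -‖w‖ / μ ≤ ‖w‖ / μ := by
        apply div_le_div_of_nonneg_right _ hμ.le
        have := norm_nonneg w
        linarith
      rw [hsp, hsm]
      linarith
    have h1 : G sm ≤ 0 := by
      simp only [hG]
      rw [Gh_line w hξ]
      have h2 := (abs_le.1 (hb sm)).2
      have h3 : μ * (ξ e + sm - 1 / 2) = -‖w‖ := by
        rw [hsm]
        field_simp
        ring
      rw [h3]
      linarith
    have h2 : 0 ≤ G sp := by
      simp only [hG]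
      rw [Gh_line w hξ]
      have h2 := (abs_le.1 (hb sp)).1
      have h3 : μ * (ξ e + sp - 1 / 2) = ‖w‖ := by
        rw [hsp]
        field_simp
        ring
      rw [h3]
      linarith
    obtain ⟨s, -, hs⟩ := intermediate_value_Icc hle hGc.continuousOn (show (0 : ℝ) ∈ Icc _ _ from ⟨h1, h2⟩)
    exact ⟨s, hs⟩
  choose R hR using hroot
  have hRuniq : ∀ e s, Gh w ξ μ (e + s • w) = 0 → s = R e := by
    intro e s hs
    by_contra hne
    rcases lt_or_gt_of_ne hne with h | h
    · have := Gh_mono w hξ (μ := μ) e h.le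
      rw [hs, hR e] at this
      have h3 : 0 < μ * (R e - s) := mul_pos hμ (by linarith)
      linarith
    · have := Gh_mono w hξ (μ := μ) e h.le
      rw [hs, hR e] at this
      have h3 : 0 < μ * (s - R e) := mul_pos hμ (by linarith)
      linarith
  have hRc : Continuous R := by
    rw [continuous_iff_continuousAt]
    intro e₀
    rw [ContinuousAt, Metric.tendsto_nhds]
    intro η hη
    have hp : 0 < Gh w ξ μ (e₀ + (R e₀ + η / 2) • w) := by
      have := Gh_mono w hξ (μ := μ) e₀ (show R e₀ ≤ R e₀ + η / 2 by linarith)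
      rw [hR e₀] at this
      have h3 : 0 < μ * (R e₀ + η / 2 - R e₀) := mul_pos hμ (by linarith)
      linarith
    have hm : Gh w ξ μ (e₀ + (R e₀ - η / 2) • w) < 0 := by
      have := Gh_mono w hξ (μ := μ) e₀ (show R e₀ - η / 2 ≤ R e₀ by linarith)
      rw [hR e₀] at this
      have h3 : 0 < μ * (R e₀ - (R e₀ - η / 2)) := mul_pos hμ (by linarith)
      linarith
    have c1 : Continuous fun e => Gh w ξ μ (e + (R e₀ + η / 2) • w) :=
      (Gh_continuous w ξ μ).comp (by fun_prop)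
    have c2 : Continuous fun e => Gh w ξ μ (e + (R e₀ - η / 2) • w) :=
      (Gh_continuous w ξ μ).comp (by fun_prop)
    have ev1 := (c1.tendsto e₀).eventually (lt_mem_nhds hp)
    have ev2 := (c2.tendsto e₀).eventually (gt_mem_nhds hm)
    filter_upwards [ev1, ev2] with e he1 he2
    rw [Real.dist_eq, abs_lt]
    constructor
    · by_contra hcon
      have hle : R e ≤ R e₀ - η / 2 := by linarith [not_lt.1 hcon, hη]
      have := Gh_mono w hξ (μ := μ) e hle
      rw [hR e] at this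
      have h3 : 0 ≤ μ * (R e₀ - η / 2 - R e) := mul_nonneg hμ.le (by linarith)
      linarith
    · by_contra hcon
      have hle : R e₀ + η / 2 ≤ R e := by linarith [not_lt.1 hcon, hη]
      have := Gh_mono w hξ (μ := μ) e hle
      rw [hR e] at this
      have h3 : 0 ≤ μ * (R e - (R e₀ + η / 2)) := mul_nonneg hμ.le (by linarith)
      linarith
  refine ⟨fun e => e + R e • w, by fun_prop, hR, fun e => ⟨R e, rfl⟩, ?_⟩
  intro e
  have h1 : -e + (1 - R e) • w = w - (e + R e • w) := by module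
  have h2 : Gh w ξ μ (-e + (1 - R e) • w) = 0 := by
    rw [h1, Gh_rho w hξ, hR e, neg_zero]
  have h3 := hRuniq (-e) (1 - R e) h2
  show -e + R (-e) • w = w - (e + R e • w)
  rw [← h3, h1]

/-- Bounds on the segment from a point of `Ew w` to the root, for a nonnegative parameter. -/
lemma near_pos {w z : X} {ξ : X →L[ℝ] ℝ} (hξ : ξ w = 1) {μ : ℝ} (hμ : 0 < μ) (hz : z ∈ Ew w)
    {β C : ℝ} (h0 : Gh w ξ μ (z + β • w) = 0) (hC : |ξ z - 1 / 2| ≤ C) {s : ℝ} (hs0 : 0 ≤ s)
    (hsβ : s ≤ β) :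
    |‖z + s • w‖ - 1| ≤ (C + 1) * (μ * C) ∧ |‖z + s • w - w‖ - 1| ≤ (C + 1) * (μ * C) := by
  have hC0 : 0 ≤ C := (abs_nonneg _).trans hC
  have hc1 := (abs_le.1 hC).1
  have hz1 : ‖z‖ = 1 := hz.1
  have hz2 : ‖z - w‖ = 1 := hz.2
  have hβ0 : 0 ≤ β := hs0.trans hsβ
  -- the gap at `0`
  have hg0 : ‖z + (0 : ℝ) • w‖ - ‖z + (0 : ℝ) • w - w‖ = 0 := by
    simp [hz1, hz2]
  have hgs := gap_mono w z hs0
  rw [hg0] at hgs
  have hgβ := gap_mono w z hsβ
  rw [Gh_line w hξ] at h0
  set gβ := ‖z + β • w‖ - ‖z + β • w - w‖ with hgβdef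
  have hgβ0 : 0 ≤ gβ := hgs.trans hgβ
  have hμc : μ * (ξ z + β - 1 / 2) ≤ 0 := by linarith
  have hneg : ξ z + β - 1 / 2 ≤ 0 := by
    by_contra hcon
    have := mul_pos hμ (not_le.1 hcon)
    linarith
  have hβC : β ≤ C := by linarith
  have hγ : gβ ≤ μ * C := by
    have : gβ = -(μ * (ξ z + β - 1 / 2)) := by linarith
    rw [this]
    have h1 : -(ξ z + β - 1 / 2) ≤ C := by linarith
    have := mul_le_mul_of_nonneg_left h1 hμ.le
    linarith
  set g := ‖z + s • w‖ - ‖z + s • w - w‖ with hg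
  have hg0' : 0 ≤ g := hgs
  have hgγ : g ≤ μ * C := hgβ.trans hγ
  have hγ0 : 0 ≤ μ * C := hg0'.trans hgγ
  -- lower bound
  have hlow : 1 ≤ ‖z + s • w‖ := by
    have e : (s + 1) • z = (z + s • w) + s • (z - w) := by module
    have h1 : ‖(s + 1) • z‖ ≤ ‖z + s • w‖ + ‖s • (z - w)‖ := by
      rw [e]; exact norm_add_le _ _
    rw [norm_smul, norm_smul, Real.norm_of_nonneg (by linarith), Real.norm_of_nonneg hs0, hz1, hz2]
      at h1
    linarith
  -- upper bound
  have hup : ‖z + s • w‖ ≤ 1 + (s + 1) * g := by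
    have e : (s + 1) • (z + s • w - w) = (z - w) + s • (z + s • w) := by module
    have h1 : ‖(s + 1) • (z + s • w - w)‖ ≤ ‖z - w‖ + ‖s • (z + s • w)‖ := by
      rw [e]; exact norm_add_le _ _
    rw [norm_smul, norm_smul, Real.norm_of_nonneg (by linarith), Real.norm_of_nonneg hs0, hz2] at h1
    have h2 : ‖z + s • w - w‖ = ‖z + s • w‖ - g := by rw [hg]; ring
    rw [h2] at h1
    nlinarith
  have hbig : (s + 1) * g ≤ (C + 1) * (μ * C) :=
    mul_le_mul (by linarith) hgγ hg0' (by linarith)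
  have hbig2 : μ * C ≤ (C + 1) * (μ * C) := by nlinarith
  have h2 : ‖z + s • w - w‖ = ‖z + s • w‖ - g := by rw [hg]; ring
  constructor
  · rw [abs_le]
    constructor <;> linarith
  · rw [h2, abs_le]
    constructor <;> linarith

/-- The segment from a point of `Ew w` to the root lies in the thickening. -/
lemma near_mem {w z : X} {ξ : X →L[ℝ] ℝ} (hξ : ξ w = 1) {μ : ℝ} (hμ : 0 < μ) (hz : z ∈ Ew w)
    {β C δ : ℝ} (h0 : Gh w ξ μ (z + β • w) = 0) (hC : |ξ z - 1 / 2| ≤ C)
    (hδ : (C + 1) * (μ * C) < δ) {s : ℝ} (hs : s ∈ uIcc 0 β) : z + s • w ∈ UD w δ := by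
  rcases le_total 0 β with hβ | hβ
  · rw [uIcc_of_le hβ] at hs
    obtain ⟨h1, h2⟩ := near_pos hξ hμ hz h0 hC hs.1 hs.2
    exact ⟨lt_of_le_of_lt h1 hδ, lt_of_le_of_lt h2 hδ⟩
  · rw [uIcc_of_ge hβ] at hs
    have hz' : w - z ∈ Ew w := Ew_rho hz
    have e0 : (w - z) + (-β) • w = w - (z + β • w) := by module
    have h0' : Gh w ξ μ ((w - z) + (-β) • w) = 0 := by
      rw [e0, Gh_rho w hξ, h0, neg_zero]
    have hC' : |ξ (w - z) - 1 / 2| ≤ C := by
      have : ξ (w - z) - 1 / 2 = -(ξ z - 1 / 2) := by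
        rw [map_sub, hξ]; ring
      rw [this, abs_neg]
      exact hC
    obtain ⟨h1, h2⟩ := near_pos hξ hμ hz' h0' hC' (s := -s) (by linarith [hs.2]) (by linarith [hs.1])
    have e1 : (w - z) + (-s) • w = w - (z + s • w) := by module
    have e2 : (w - z) + (-s) • w - w = -(z + s • w) := by module
    rw [e1, norm_sub_rev] at h1
    rw [e2, norm_neg] at h2
    exact ⟨lt_of_le_of_lt h2 hδ, lt_of_le_of_lt h1 hδ⟩

end Section

section BU

variable {Z : Type*} [TopologicalSpace Z]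

/-- Borsuk-Ulam, in the form: a component of a sublevel set or of a superlevel set contains a pair
`y, ρ y`. -/
theorem exists_antipodal_comp [LocallyConnectedSpace Z] {ρ : Z → Z} (hρc : Continuous ρ)
    (hρρ : ∀ z, ρ (ρ z) = z)
    (hBU : ∀ Ξ : Z → ℂ, Continuous Ξ → (∀ t, Ξ t ≠ 0) → (∀ t, Ξ (ρ t) = -Ξ t) → False)
    {h : Z → ℝ} (hc : Continuous h) (heven : ∀ t, h (ρ t) = h t) {c1 c2 : ℝ} (hlt : c1 < c2) :
    (∃ y, h y < c2 ∧ ρ y ∈ connectedComponentIn {x | h x < c2} y) ∨
      (∃ y, -h y < -c1 ∧ ρ y ∈ connectedComponentIn {x | -h x < -c1} y) := by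
  by_contra hcon
  push Not at hcon
  obtain ⟨h1, h2⟩ := hcon
  set A : Set Z := {x | h x < c2} with hA
  set B : Set Z := {x | -h x < -c1} with hB
  have hAo : IsOpen A := isOpen_lt hc continuous_const
  have hBo : IsOpen B := isOpen_lt hc.neg continuous_const
  have hfreeA : ∀ y ∈ A, ρ y ∉ connectedComponentIn A y := fun y hy => h1 y hy
  have hfreeB : ∀ y ∈ B, ρ y ∉ connectedComponentIn B y := fun y hy => h2 y hy
  obtain ⟨σA, hA1, hA2, hA3⟩ := exists_sign hρc hρρ hAo
    (fun y hy => by simpa [hA, heven] using hy) hfreeA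
  obtain ⟨σB, hB1, hB2, hB3⟩ := exists_sign hρc hρρ hBo
    (fun y hy => by simpa [hB, heven] using hy) hfreeB
  set a : Z → ℝ := fun x => max 0 (c2 - h x) with ha
  set b : Z → ℝ := fun x => max 0 (h x - c1) with hb
  have hac : Continuous a := continuous_const.max (continuous_const.sub hc)
  have hbc : Continuous b := continuous_const.max (hc.sub continuous_const)
  have ha0 : ∀ x, x ∉ A → a x = 0 := by
    intro x hx
    have : c2 ≤ h x := not_lt.1 hx
    simp only [ha]
    exact max_eq_left (by linarith)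
  have hb0 : ∀ x, x ∉ B → b x = 0 := by
    intro x hx
    have : -c1 ≤ -h x := not_lt.1 hx
    simp only [hb]
    exact max_eq_left (by linarith)
  have hp := continuous_mul_sign hac ha0 hA1 hA3
  have hq := continuous_mul_sign hbc hb0 hB1 hB3
  apply hBU (fun x => ((a x * σA x : ℝ) : ℂ) + ((b x * σB x : ℝ) : ℂ) * Complex.I)
  · exact (Complex.continuous_ofReal.comp hp).add
      ((Complex.continuous_ofReal.comp hq).mul continuous_const)
  · intro x h0
    have hre : a x * σA x = 0 := by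
      have := congrArg Complex.re h0
      simpa using this
    have him : b x * σB x = 0 := by
      have := congrArg Complex.im h0
      simpa using this
    by_cases hx : x ∈ A
    · have h1 : 0 < a x := lt_max_of_lt_right (by
        have : h x < c2 := hx
        linarith)
      have h2 : σA x ≠ 0 := by
        intro h3
        have := hA1 x hx
        rw [h3] at this
        simp at this
      exact mul_ne_zero h1.ne' h2 hre
    · have hx' : c2 ≤ h x := not_lt.1 hx
      have hxB : x ∈ B := by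
        have : -h x < -c1 := by linarith
        exact this
      have h1 : 0 < b x := lt_max_of_lt_right (by linarith)
      have h2 : σB x ≠ 0 := by
        intro h3
        have := hB1 x hxB
        rw [h3] at this
        simp at this
      exact mul_ne_zero h1.ne' h2 him
  · intro x
    have h1 : a (ρ x) * σA (ρ x) = -(a x * σA x) := by
      have e : a (ρ x) = a x := by simp only [ha, heven]
      rw [e]
      by_cases hx : x ∈ A
      · rw [hA2 x hx]; ring
      · rw [ha0 x hx]; ring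
    have h2 : b (ρ x) * σB (ρ x) = -(b x * σB x) := by
      have e : b (ρ x) = b x := by simp only [hb, heven]
      rw [e]
      by_cases hx : x ∈ B
      · rw [hB2 x hx]; ring
      · rw [hb0 x hx]; ring
    simp only [h1, h2]
    push_cast
    ring

end BU

section Main

variable {X : Type*} [NormedAddCommGroup X] [NormedSpace ℝ X] [FiniteDimensional ℝ X]
variable {E' : Type*} [NormedAddCommGroup E'] [InnerProductSpace ℝ E'] [FiniteDimensional ℝ E']

/-- Approximate invariance in a thin thickening. -/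
lemma exists_AUC {w : X} {F : X → ℝ} (hF : Continuous F)
    (hrel : ∀ s ∈ Ew w, ∀ t ∈ Ew w, ‖s - t‖ = 1 → F s = F t) {ε : ℝ} (hε : 0 < ε) :
    ∃ δ > 0, δ ≤ 1 ∧ ∀ x x', x ∈ UD w δ → x' ∈ UD w δ → ‖x - x'‖ = 1 → |F x - F x'| < ε := by
  have : ProperSpace X := FiniteDimensional.proper_real X
  set K : Set (X × X) := (closedBall 0 2 ×ˢ closedBall 0 2) ∩
    {p | ‖p.1 - p.2‖ = 1 ∧ ε ≤ |F p.1 - F p.2|} with hK
  have hKc : IsCompact K := by
    apply ((isCompact_closedBall _ _).prod (isCompact_closedBall _ _)).inter_right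
    have c1 : Continuous fun p : X × X => ‖p.1 - p.2‖ := by fun_prop
    have c2 : Continuous fun p : X × X => |F p.1 - F p.2| :=
      ((hF.comp continuous_fst).sub (hF.comp continuous_snd)).abs
    exact (isClosed_eq c1 continuous_const).inter (isClosed_le continuous_const c2)
  set Θ : X × X → ℝ := fun p =>
    max (max |‖p.1‖ - 1| |‖p.1 - w‖ - 1|) (max |‖p.2‖ - 1| |‖p.2 - w‖ - 1|) with hΘ
  have hΘc : Continuous Θ := by
    have c1 : Continuous fun p : X × X => |‖p.1‖ - 1| := by fun_prop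
    have c2 : Continuous fun p : X × X => |‖p.1 - w‖ - 1| := by fun_prop
    have c3 : Continuous fun p : X × X => |‖p.2‖ - 1| := by fun_prop
    have c4 : Continuous fun p : X × X => |‖p.2 - w‖ - 1| := by fun_prop
    exact (c1.max c2).max (c3.max c4)
  have hmemK : ∀ {δ : ℝ}, δ ≤ 1 → ∀ x x', x ∈ UD w δ → x' ∈ UD w δ → ‖x - x'‖ = 1 →
      ε ≤ |F x - F x'| → (x, x') ∈ K := by
    intro δ hδ x x' hx hx' hd hge
    refine ⟨⟨?_, ?_⟩, hd, hge⟩
    · simpa using (UD_norm_lt hδ hx).le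
    · simpa using (UD_norm_lt hδ hx').le
  rcases K.eq_empty_or_nonempty with he | hne
  · refine ⟨1, one_pos, le_rfl, fun x x' hx hx' hd => ?_⟩
    by_contra hcon
    have hm := hmemK le_rfl x x' hx hx' hd (not_lt.1 hcon)
    rw [he] at hm
    exact hm
  · obtain ⟨p, hp, hmin⟩ := hKc.exists_isMinOn hne hΘc.continuousOn
    have hpos : 0 < Θ p := by
      by_contra hcon
      have h0 : Θ p ≤ 0 := not_lt.1 hcon
      have h1 : |‖p.1‖ - 1| ≤ 0 := (le_max_left _ _).trans ((le_max_left _ _).trans h0)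
      have h2 : |‖p.1 - w‖ - 1| ≤ 0 := (le_max_right _ _).trans ((le_max_left _ _).trans h0)
      have h3 : |‖p.2‖ - 1| ≤ 0 := (le_max_left _ _).trans ((le_max_right _ _).trans h0)
      have h4 : |‖p.2 - w‖ - 1| ≤ 0 := (le_max_right _ _).trans ((le_max_right _ _).trans h0)
      have a1 : ‖p.1‖ = 1 := by have := abs_nonpos_iff.1 h1; linarith
      have a2 : ‖p.1 - w‖ = 1 := by have := abs_nonpos_iff.1 h2; linarith
      have a3 : ‖p.2‖ = 1 := by have := abs_nonpos_iff.1 h3; linarith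
      have a4 : ‖p.2 - w‖ = 1 := by have := abs_nonpos_iff.1 h4; linarith
      have h5 := hrel p.1 ⟨a1, a2⟩ p.2 ⟨a3, a4⟩ hp.2.1
      have h7 := hp.2.2
      rw [h5, sub_self, abs_zero] at h7
      linarith
    refine ⟨min (Θ p) 1, lt_min hpos one_pos, min_le_right _ _, fun x x' hx hx' hd => ?_⟩
    by_contra hcon
    have hm := hmemK (min_le_right _ _) x x' hx hx' hd (not_lt.1 hcon)
    have hle : Θ p ≤ Θ (x, x') := hmin hm
    have hb : min (Θ p) 1 ≤ Θ p := min_le_left _ _
    have hlt : Θ (x, x') < Θ p := by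
      refine max_lt (max_lt ?_ ?_) (max_lt ?_ ?_)
      · exact lt_of_lt_of_le hx.1 hb
      · exact lt_of_lt_of_le hx.2 hb
      · exact lt_of_lt_of_le hx'.1 hb
      · exact lt_of_lt_of_le hx'.2 hb
    linarith

/-- One inequality of the constancy theorem. -/
theorem nofib_lt {k : ℕ} [Fact (Module.finrank ℝ E' = k + 1)] (hk : 2 ≤ k)
    {w : X} {π : X →L[ℝ] E'} (hw : w ≠ 0) (hw1 : ‖w‖ < 1)
    (hker : ∀ x, π x = 0 ↔ ∃ a : ℝ, x = a • w) (hsurj : Function.Surjective π)
    {f : X → ℝ} (hf : ContinuousOn f (Ew w)) (heven : ∀ x ∈ Ew w, f (w - x) = f x)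
    (hrel : ∀ s ∈ Ew w, ∀ t ∈ Ew w, ‖s - t‖ = 1 → f s = f t)
    {s₀ t₀ : X} (hs₀ : s₀ ∈ Ew w) (ht₀ : t₀ ∈ Ew w) (hlt : f s₀ < f t₀) : False := by
  have hw2 : ‖w‖ < 2 := by linarith
  have hfd : Module.finrank ℝ E' = k + 1 := Fact.out
  have hdim3 : 3 ≤ Module.finrank ℝ E' := by omega
  have hnt : Nontrivial E' := by
    apply Module.nontrivial_of_finrank_pos (R := ℝ)
    omega
  have hπw : π w = 0 := (hker w).2 ⟨1, by simp⟩
  have hcomp : CompactSpace (Ew w) := isCompact_iff_compactSpace.1 (isCompact_Ew w)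
  -- Tietze
  have hfc : Continuous fun z : Ew w => f z := continuousOn_iff_continuous_domRestrict.1 hf
  obtain ⟨g, hg⟩ := (⟨fun z : Ew w => f z, hfc⟩ : C(Ew w, ℝ)).exists_restrict_eq (isClosed_Ew w)
  have hgf : ∀ x ∈ Ew w, g x = f x := by
    intro x hx
    have := congrArg (fun c : C(Ew w, ℝ) => c ⟨x, hx⟩) hg
    simpa using this
  set F : X → ℝ := fun x => (g x + g (w - x)) / 2 with hFdef
  have hFc : Continuous F := by
    simp only [hFdef]
    exact ((g.continuous).add (g.continuous.comp (continuous_const.sub continuous_id))).div_const 2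
  have hFeven : ∀ x, F (w - x) = F x := by
    intro x
    simp only [hFdef, sub_sub_cancel]
    ring
  have hFf : ∀ x ∈ Ew w, F x = f x := by
    intro x hx
    simp only [hFdef]
    rw [hgf x hx, hgf _ (Ew_rho hx), heven x hx]
    ring
  have hFrel : ∀ s ∈ Ew w, ∀ t ∈ Ew w, ‖s - t‖ = 1 → F s = F t := by
    intro s hs t ht hst
    rw [hFf s hs, hFf t ht]
    exact hrel s hs t ht hst
  -- the base
  have hπ0 : ∀ z : Ew w, π (z : X) ≠ 0 := fun z => pi_ne_zero_ns hw2 π hker z.2
  have hn : ∀ z : Ew w, ‖‖π (z : X)‖⁻¹ • π (z : X)‖ = 1 := fun z => by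
    simpa using norm_smul_inv_norm (𝕜 := ℝ) (hπ0 z)
  let θ : Ew w → sphere (0 : E') 1 :=
    fun z => ⟨‖π (z : X)‖⁻¹ • π (z : X), by simpa using hn z⟩
  have hθc : Continuous θ := Continuous.subtype_mk
    (((π.continuous.comp continuous_subtype_val).norm.inv₀
      (fun z => norm_ne_zero_iff.2 (hπ0 z))).smul (π.continuous.comp continuous_subtype_val)) _
  have hsame : ∀ a b : Ew w, θ a = θ b → π (a : X) = π (b : X) := by
    intro a b hab
    have h1 : ‖π (a : X)‖⁻¹ • π (a : X) = ‖π (b : X)‖⁻¹ • π (b : X) := congrArg Subtype.val hab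
    have hna : 0 < ‖π (a : X)‖ := norm_pos_iff.2 (hπ0 a)
    have hnb : 0 < ‖π (b : X)‖ := norm_pos_iff.2 (hπ0 b)
    have hκ : π (b : X) = (‖π (b : X)‖ * ‖π (a : X)‖⁻¹) • π (a : X) := by
      rw [mul_smul, h1, smul_smul, mul_inv_cancel₀ hnb.ne', one_smul]
    have h2 := same_ray hw2 hker hsurj a.2 b.2 (by positivity) hκ
    rw [h2, one_smul] at hκ
    exact hκ.symm
  have hθs : Function.Surjective θ := by
    rintro ⟨t, ht⟩
    have ht1 : ‖t‖ = 1 := by simpa using ht
    have ht0 : t ≠ 0 := by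
      rintro rfl
      simp at ht1
    obtain ⟨x, hx, κ, hκ, hπx⟩ := Ew_exists_ns hw hw2 π hπw hsurj ht0
    refine ⟨⟨x, hx⟩, Subtype.ext ?_⟩
    show ‖π x‖⁻¹ • π x = t
    rw [hπx, norm_smul, ht1, Real.norm_of_nonneg hκ.le, mul_one, smul_smul,
      inv_mul_cancel₀ hκ.ne', one_smul]
  have hθq : Topology.IsQuotientMap θ := hθc.isClosedMap.isQuotientMap hθc hθs
  set inv : sphere (0 : E') 1 → Ew w := Function.surjInv hθs with hinv
  have hθinv : ∀ v, θ (inv v) = v := Function.surjInv_eq hθs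
  set q : sphere (0 : E') 1 → E' := fun v => π (inv v) with hq
  have hqθ : ∀ a : Ew w, q (θ a) = π (a : X) := fun a => hsame _ _ (hθinv (θ a))
  have hqc : Continuous q := by
    rw [hθq.continuous_iff]
    have : q ∘ θ = fun z : Ew w => π (z : X) := funext hqθ
    rw [this]
    exact π.continuous.comp continuous_subtype_val
  have hθneg : ∀ t : Ew w, θ ⟨w - t, Ew_rho t.2⟩ = -θ t := by
    intro t
    apply Subtype.ext
    show ‖π (w - (t : X))‖⁻¹ • π (w - (t : X)) = -(‖π (t : X)‖⁻¹ • π (t : X))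
    rw [map_sub, hπw, zero_sub, norm_neg, smul_neg]
  have hqneg : ∀ v, q (-v) = - q v := by
    intro v
    obtain ⟨a, rfl⟩ := hθs v
    rw [← hθneg, hqθ, hqθ]
    show π (w - (a : X)) = _
    rw [map_sub, hπw, zero_sub]
  -- the linear functional
  obtain ⟨l, hl1, hlw⟩ := exists_dual_vector'' ℝ w
  have hlw' : l w = ‖w‖ := by simpa using hlw
  have hwn : 0 < ‖w‖ := norm_pos_iff.2 hw
  set ξ : X →L[ℝ] ℝ := ‖w‖⁻¹ • l with hξdef
  have hξ : ξ w = 1 := by
    simp only [hξdef, smul_apply, smul_eq_mul]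
    rw [hlw', inv_mul_cancel₀ hwn.ne']
  set C : ℝ := ‖w‖⁻¹ + 1 / 2 with hCdef
  have hC0 : 0 < C := by positivity
  have hCb : ∀ z ∈ Ew w, |ξ z - 1 / 2| ≤ C := by
    intro z hz
    have h1 : |l z| ≤ 1 := by
      have := l.le_opNorm z
      rw [hz.1, mul_one] at this
      exact (this.trans hl1)
    have h2 : |ξ z| ≤ ‖w‖⁻¹ := by
      simp only [hξdef, smul_apply, smul_eq_mul]
      rw [abs_mul, abs_of_pos (inv_pos.2 hwn)]
      exact mul_le_of_le_one_right (inv_pos.2 hwn).le h1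
    have h3 : |ξ z - 1 / 2| ≤ |ξ z| + |(1 / 2 : ℝ)| := abs_sub _ _
    have h4 : |(1 / 2 : ℝ)| = 1 / 2 := abs_of_pos (by norm_num)
    rw [hCdef]
    linarith
  -- constants
  set gap : ℝ := f t₀ - f s₀ with hgap
  have hgap0 : 0 < gap := by
    rw [hgap]
    linarith
  set r : ℝ := (1 - ‖w‖) / 2 with hr
  have hr0 : 0 < r := by
    rw [hr]
    linarith
  obtain ⟨M, hM⟩ := exists_packing (X := X) (half_pos hr0)
  have hM0 : (0 : ℝ) < (M : ℝ) + 1 := by positivity
  set ε : ℝ := gap / (3 * ((M : ℝ) + 1)) with hε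
  have hε0 : 0 < ε := by positivity
  have hMε : ((M : ℝ) + 1) * ε = gap / 3 := by
    rw [hε]
    field_simp
  obtain ⟨δ₀, hδ₀, hδ₀1, hAUC₀⟩ := exists_AUC hFc hFrel hε0
  set δ : ℝ := min δ₀ ((1 - ‖w‖) / 4) with hδ
  have hδ0 : 0 < δ := lt_min hδ₀ (by linarith)
  have hδ1 : δ ≤ 1 := (min_le_left _ _).trans hδ₀1
  have hδr : r + 2 * δ ≤ 1 - ‖w‖ := by
    have : δ ≤ (1 - ‖w‖) / 4 := min_le_right _ _
    rw [hr]
    linarith
  have hUsub : UD w δ ⊆ UD w δ₀ := fun x hx =>
    ⟨lt_of_lt_of_le hx.1 (min_le_left _ _), lt_of_lt_of_le hx.2 (min_le_left _ _)⟩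
  have hAUC : ∀ x x', x ∈ UD w δ → x' ∈ UD w δ → ‖x - x'‖ = 1 → |F x - F x'| < ε :=
    fun x x' hx hx' hd => hAUC₀ x x' (hUsub hx) (hUsub hx') hd
  have hAUC' : ∀ x x', x ∈ UD w δ → x' ∈ UD w δ → ‖x - x'‖ = 1 →
      |(fun y => -F y) x - (fun y => -F y) x'| < ε := by
    intro x x' hx hx' hd
    have := hAUC x x' hx hx' hd
    show |-F x - -F x'| < ε
    rwa [show -F x - -F x' = -(F x - F x') by ring, abs_neg]
  set μ : ℝ := δ / (2 * ((C + 1) * C)) with hμdef
  have hμ0 : 0 < μ := by positivity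
  have hμδ : (C + 1) * (μ * C) < δ := by
    have : (C + 1) * (μ * C) = δ / 2 := by
      rw [hμdef]
      field_simp
    rw [this]
    linarith
  -- the section
  obtain ⟨Φ₀, hΦ₀c, hΦ₀0, hΦ₀l, hΦ₀o⟩ := exists_section hξ hμ0
  obtain ⟨σl, hσl⟩ := LinearMap.exists_rightInverse_of_surjective π.toLinearMap
    (LinearMap.range_eq_top.2 hsurj)
  have hσc : Continuous σl := σl.continuous_of_finiteDimensional
  have hπσ : ∀ y, π (σl y) = y := fun y => by
    have := LinearMap.congr_fun hσl y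
    simpa using this
  set Φ : sphere (0 : E') 1 → X := fun v => Φ₀ (σl (q v)) with hΦ
  have hΦc : Continuous Φ := hΦ₀c.comp (hσc.comp hqc)
  have hΦneg : ∀ v, Φ (-v) = w - Φ v := by
    intro v
    simp only [hΦ]
    rw [hqneg, map_neg, hΦ₀o]
  have hΦline : ∀ v, ∀ z ∈ Ew w, π z = q v → ∃ β : ℝ, Φ v = z + β • w := by
    intro v z hz hzq
    obtain ⟨s, hs⟩ := hΦ₀l (σl (q v))
    have h0 : π (Φ v - z) = 0 := by
      simp only [hΦ]
      rw [map_sub, hs, map_add, map_smul, hπw, smul_zero, add_zero, hπσ, hzq, sub_self]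
    obtain ⟨β, hβ⟩ := (hker _).1 h0
    exact ⟨β, by rw [← hβ]; abel⟩
  have hΦzero : ∀ v, Gh w ξ μ (Φ v) = 0 := fun v => hΦ₀0 _
  have hΦU : ∀ v, Φ v ∈ UD w δ := by
    intro v
    obtain ⟨β, hβ⟩ := hΦline v (inv v) (inv v).2 rfl
    have := near_mem hξ hμ0 (inv v).2 (β := β) (by rw [← hβ]; exact hΦzero v)
      (hCb _ (inv v).2) hμδ right_mem_uIcc
    rwa [← hβ] at this
  -- the sphere is connected and locally connected
  have hrank : 1 < Module.rank ℝ E' := by
    rw [← Module.finrank_eq_rank]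
    exact_mod_cast (by omega : 1 < Module.finrank ℝ E')
  have hconn : IsConnected (sphere (0 : E') 1) := isConnected_sphere hrank 0 zero_le_one
  have hcs : ConnectedSpace (sphere (0 : E') 1) := isConnected_iff_connectedSpace.1 hconn
  have hlc : LocallyConnectedSpace (sphere (0 : E') 1) :=
    ChartedSpace.locallyConnectedSpace (EuclideanSpace ℝ (Fin k)) (sphere (0 : E') 1)
  have hBU : ∀ Ξ : sphere (0 : E') 1 → ℂ, Continuous Ξ → (∀ t, Ξ t ≠ 0) →
      (∀ t, Ξ (-t) = -Ξ t) → False := fun Ξ hc h0 hodd => no_odd_sphere hdim3 Ξ hc h0 hodd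
  -- every point of `Ew w` is in the component of the section
  have hΩ : ∀ (v₀ : sphere (0 : E') 1), ∀ t ∈ Ew w, t ∈ connectedComponentIn (UD w δ) (Φ v₀) := by
    intro v₀ t ht
    have hqt : π t = q (θ ⟨t, ht⟩) := (hqθ ⟨t, ht⟩).symm
    obtain ⟨β, hβ⟩ := hΦline (θ ⟨t, ht⟩) t ht hqt
    have h0 : Gh w ξ μ (t + β • w) = 0 := by
      rw [← hβ]
      exact hΦzero _
    have hS : IsPreconnected (Φ '' univ) := isPreconnected_univ.image _ hΦc.continuousOn
    have hSsub : Φ '' univ ⊆ UD w δ := by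
      rintro _ ⟨v, -, rfl⟩
      exact hΦU v
    have h1 : Φ (θ ⟨t, ht⟩) ∈ connectedComponentIn (UD w δ) (Φ v₀) :=
      hS.subset_connectedComponentIn (mem_image_of_mem _ (mem_univ _)) hSsub
        (mem_image_of_mem _ (mem_univ _))
    have hL : IsPreconnected ((fun s : ℝ => t + s • w) '' uIcc 0 β) :=
      isPreconnected_uIcc.image _ (by fun_prop)
    have hLsub : (fun s : ℝ => t + s • w) '' uIcc 0 β ⊆ UD w δ := by
      rintro _ ⟨s, hs, rfl⟩
      exact near_mem hξ hμ0 ht h0 (hCb t ht) hμδ hs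
    have h2 : t ∈ connectedComponentIn (UD w δ) (Φ (θ ⟨t, ht⟩)) := by
      apply hL.subset_connectedComponentIn (x := Φ (θ ⟨t, ht⟩)) _ hLsub
      · exact ⟨0, left_mem_uIcc, by simp⟩
      · rw [hβ]
        exact ⟨β, right_mem_uIcc, rfl⟩
    rw [connectedComponentIn_eq h1]
    exact h2
  -- Borsuk-Ulam
  set H : sphere (0 : E') 1 → ℝ := fun v => F (Φ v) with hH
  have hHc : Continuous H := hFc.comp hΦc
  have hHeven : ∀ v, H (-v) = H v := fun v => by
    simp only [hH]
    rw [hΦneg, hFeven]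
  set c1 : ℝ := f s₀ + gap / 3 with hc1
  set c2 : ℝ := f t₀ - gap / 3 with hc2
  have hc12 : c1 < c2 := by
    rw [hc1, hc2, hgap]
    linarith
  rcases exists_antipodal_comp continuous_neg neg_neg hBU hHc hHeven hc12 with
    ⟨y, hy, hyc⟩ | ⟨y, hy, hyc⟩
  · have hx₀ : Φ y ∈ Dlev w δ F c2 := ⟨hΦU y, hy⟩
    have hsym : w - Φ y ∈ connectedComponentIn (Dlev w δ F c2) (Φ y) := by
      rw [← hΦneg]
      have hW : IsPreconnected (Φ '' connectedComponentIn {x | H x < c2} y) :=
        isPreconnected_connectedComponentIn.image _ hΦc.continuousOn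
      have hsub : Φ '' connectedComponentIn {x | H x < c2} y ⊆ Dlev w δ F c2 := by
        rintro _ ⟨a, ha, rfl⟩
        have h5 : H a < c2 := connectedComponentIn_subset {x | H x < c2} y ha
        exact ⟨hΦU a, h5⟩
      exact hW.subset_connectedComponentIn (mem_image_of_mem _ (mem_connectedComponentIn hy)) hsub
        (mem_image_of_mem _ hyc)
    have h3 := growth_main hFc hFeven hδr hδ0 hδ1 hr0 hAUC hε0 hM hx₀ hsym t₀ (hΩ y t₀ ht₀)
    rw [hFf t₀ ht₀, hMε, hc2] at h3
    linarith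
  · have hFc' : Continuous fun x => -F x := hFc.neg
    have hFeven' : ∀ x, (fun y => -F y) (w - x) = (fun y => -F y) x := fun x => by
      show -F (w - x) = -F x
      rw [hFeven]
    have hx₀ : Φ y ∈ Dlev w δ (fun x => -F x) (-c1) := ⟨hΦU y, hy⟩
    have hsym : w - Φ y ∈ connectedComponentIn (Dlev w δ (fun x => -F x) (-c1)) (Φ y) := by
      rw [← hΦneg]
      have hW : IsPreconnected (Φ '' connectedComponentIn {x | -H x < -c1} y) :=
        isPreconnected_connectedComponentIn.image _ hΦc.continuousOn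
      have hsub : Φ '' connectedComponentIn {x | -H x < -c1} y ⊆
          Dlev w δ (fun x => -F x) (-c1) := by
        rintro _ ⟨a, ha, rfl⟩
        have h5 : -H a < -c1 := connectedComponentIn_subset {x | -H x < -c1} y ha
        exact ⟨hΦU a, h5⟩
      exact hW.subset_connectedComponentIn (mem_image_of_mem _ (mem_connectedComponentIn hy)) hsub
        (mem_image_of_mem _ hyc)
    have h3 := growth_main hFc' hFeven' hδr hδ0 hδ1 hr0 hAUC' hε0 hM hx₀ hsym s₀ (hΩ y s₀ hs₀)
    have h4 : -F s₀ < -c1 + gap / 3 := by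
      rw [hMε] at h3
      exact h3
    rw [hFf s₀ hs₀, hc1] at h4
    linarith

/-- The constancy theorem, for a projection along `w`. -/
theorem nofib_of_proj {k : ℕ} [Fact (Module.finrank ℝ E' = k + 1)] (hk : 2 ≤ k)
    {w : X} {π : X →L[ℝ] E'} (hw : w ≠ 0) (hw1 : ‖w‖ < 1)
    (hker : ∀ x, π x = 0 ↔ ∃ a : ℝ, x = a • w) (hsurj : Function.Surjective π)
    {f : X → ℝ} (hf : ContinuousOn f (Ew w)) (heven : ∀ x ∈ Ew w, f (w - x) = f x)
    (hrel : ∀ s ∈ Ew w, ∀ t ∈ Ew w, ‖s - t‖ = 1 → f s = f t) :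
    ∀ s ∈ Ew w, ∀ t ∈ Ew w, f s = f t := by
  intro s hs t ht
  by_contra hne
  rcases lt_or_gt_of_ne hne with h | h
  · exact nofib_lt hk hw hw1 hker hsurj hf heven hrel hs ht h
  · exact nofib_lt hk hw hw1 hker hsurj hf heven hrel ht hs h

/-- The constancy theorem: a continuous function on `Ew w`, even and with equal values at unit
distance, is constant, in dimension at least four, for every norm. -/
theorem even_rel_const_nofib (hdim : 4 ≤ Module.finrank ℝ X) {w : X} (hw : w ≠ 0) (hw1 : ‖w‖ < 1)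
    {f : X → ℝ} (hf : ContinuousOn f (Ew w)) (heven : ∀ x ∈ Ew w, f (w - x) = f x)
    (hrel : ∀ s ∈ Ew w, ∀ t ∈ Ew w, ‖s - t‖ = 1 → f s = f t) :
    ∀ s ∈ Ew w, ∀ t ∈ Ew w, f s = f t := by
  obtain ⟨k, hk⟩ : ∃ k, Module.finrank ℝ X = k + 2 := ⟨Module.finrank ℝ X - 2, by omega⟩
  obtain ⟨π, h1, h2⟩ := exists_proj hw hk
  have : Fact (Module.finrank ℝ (EuclideanSpace ℝ (Fin (k + 1))) = k + 1) := ⟨by simp⟩
  exact nofib_of_proj (by omega : 2 ≤ k) hw hw1 h1 h2 hf heven hrel

end Main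

section KConst

variable {X Y : Type*} [NormedAddCommGroup X] [NormedSpace ℝ X] [FiniteDimensional ℝ X]
  [NormedAddCommGroup Y] [NormedSpace ℝ Y]

/-- Dimension at least four, every norm, no surjectivity: from additivity on unit triples alone,
the function `s ↦ f s + f (w - s)` is constant on `Ew w` for `0 < ‖w‖ < 1`. -/
theorem K_const_nofib (hdim : 4 ≤ Module.finrank ℝ X) {f : X → Y}
    (hiso : ∀ x x' : X, ‖x‖ = 1 → ‖x'‖ = 1 → ‖f x - f x'‖ = ‖x - x'‖)
    (hadd : ∀ x y : X, ‖x‖ = 1 → ‖y‖ = 1 → ‖x + y‖ = 1 → f (x + y) = f x + f y)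
    {w : X} (hw : w ≠ 0) (hw1 : ‖w‖ < 1) {s t : X} (hs : s ∈ Ew w) (ht : t ∈ Ew w) :
    f s + f (w - s) = f t + f (w - t) := by
  by_contra hne
  obtain ⟨l, -, hl⟩ := exists_dual_vector'' ℝ (f s + f (w - s) - (f t + f (w - t)))
  have hgc : ContinuousOn f {a | ‖a‖ = 1} := by
    rw [Metric.continuousOn_iff]
    intro a ha ε hε
    refine ⟨ε, hε, fun b hb hab => ?_⟩
    rw [dist_eq_norm, hiso b a hb ha, ← dist_eq_norm]
    exact hab
  have hcont : ContinuousOn (fun x => l (f x + f (w - x))) (Ew w) :=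
    l.continuous.comp_continuousOn ((hgc.mono fun a ha => ha.1).add
      (hgc.comp (continuous_const.sub continuous_id).continuousOn fun a ha => (Ew_rho ha).1))
  have heq := even_rel_const_nofib hdim hw hw1 hcont
    (fun x _ => by
      show l (f (w - x) + f (w - (w - x))) = l (f x + f (w - x))
      rw [sub_sub_cancel, add_comm])
    (fun a ha b hb hab => by
      show l (f a + f (w - a)) = l (f b + f (w - b))
      rw [rel_unit_ns hadd ha hb hab])
    s hs t ht
  have h0 : f s + f (w - s) - (f t + f (w - t)) ≠ 0 := sub_ne_zero.2 hne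
  have h1 : l (f s + f (w - s) - (f t + f (w - t))) = 0 := by
    rw [map_sub]
    exact sub_eq_zero.2 heq
  rw [hl] at h1
  exact h0 (by exact_mod_cast norm_eq_zero.1 (by exact_mod_cast h1))

end KConst

end Vale.Agent.Lib.P084.Inf
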